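import Vale.Agent.P064.Trans

/-!
# P064, orientation method: basic definitions
-/

namespace VP064

open Finset

open Classical in
/-- `E` is `q`-incompressible: for every `U ⊆ E` the proportion of permutations mapping `U` into
itself is at most `q^|U|`. -/
def Inc {n : ℕ} (q : ℝ) (E : Finset (Sym2 (Fin n))) : Prop :=
  ∀ U ⊆ E, ((univ.filter fun g : Equiv.Perm (Fin n) => act g U ⊆ U).card : ℝ)
    ≤ q ^ U.card * n.factorial

open Classical in
/-- The image of the arcs `T` under the map `φ`. -/
noncomputable def im {n : ℕ} {X : Type} (T : Finset (X × X)) (φ : X → Fin n) :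
    Finset (Sym2 (Fin n)) :=
  T.image fun p => s(φ p.1, φ p.2)

open Classical in
/-- The union of the images of the arcs `T` under the maps in `Φ`. -/
noncomputable def build {n : ℕ} {X : Type} (T : Finset (X × X)) (Φ : Finset (X → Fin n)) :
    Finset (Sym2 (Fin n)) :=
  Φ.biUnion fun φ => im T φ

end VP064
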