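import Vale.Agent.P064.Or.Main
import Vale.Agent.P064.PcBound

/-!
# From embeddings to permutations, and the conditions on `E`
-/

namespace VP064

open Finset

open Classical in
/-- representatives of unordered pairs -/
noncomputable def rep {n : ℕ} (U : Finset (Sym2 (Fin n))) : Finset (Fin n × Fin n) :=
  U.image Quot.out

lemma mk_out {n : ℕ} (e : Sym2 (Fin n)) : s((Quot.out e).1, (Quot.out e).2) = e := Quot.out_eq e

lemma rep_simp {n : ℕ} (U : Finset (Sym2 (Fin n))) : Simp (rep U) := by
  classical
  intro p hp p' hp' h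
  unfold rep at hp hp'
  rw [Finset.mem_image] at hp hp'
  obtain ⟨e, _, rfl⟩ := hp
  obtain ⟨e', _, rfl⟩ := hp'
  rw [mk_out, mk_out] at h
  rw [h]

lemma rep_card {n : ℕ} (U : Finset (Sym2 (Fin n))) : (rep U).card = U.card := by
  classical
  unfold rep
  apply Finset.card_image_of_injective
  intro e e' h
  rw [← mk_out e, ← mk_out e', h]

lemma im_rep {n : ℕ} (U : Finset (Sym2 (Fin n))) : im (rep U) (id : Fin n → Fin n) = U := by
  classical
  unfold im rep
  rw [Finset.image_image]
  ext e
  rw [Finset.mem_image]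
  constructor
  · rintro ⟨e', he', rfl⟩
    simp only [Function.comp_apply, id]
    rw [mk_out]
    exact he'
  · intro he
    refine ⟨e, he, ?_⟩
    simp only [Function.comp_apply, id]
    exact mk_out e

open Classical in
/-- support -/
noncomputable def supp {n : ℕ} (U : Finset (Sym2 (Fin n))) : Finset (Fin n) :=
  univ.filter fun x : Fin n => ∃ e ∈ U, x ∈ e

lemma rep_supp {n : ℕ} (U : Finset (Sym2 (Fin n))) :
    ∀ p ∈ rep U, p.1 ∈ supp U ∧ p.2 ∈ supp U := by
  classical
  intro p hp
  unfold rep at hp
  rw [Finset.mem_image] at hp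
  obtain ⟨e, he, rfl⟩ := hp
  unfold supp
  rw [Finset.mem_filter, Finset.mem_filter]
  refine ⟨⟨Finset.mem_univ _, e, he, ?_⟩, Finset.mem_univ _, e, he, ?_⟩
  · have h : (Quot.out e).1 ∈ s((Quot.out e).1, (Quot.out e).2) := Sym2.mem_mk_left _ _
    rwa [mk_out e] at h
  · have h : (Quot.out e).2 ∈ s((Quot.out e).1, (Quot.out e).2) := Sym2.mem_mk_right _ _
    rwa [mk_out e] at h

lemma supp_card_le {n : ℕ} (U : Finset (Sym2 (Fin n))) : (supp U).card ≤ 2 * U.card := by
  classical
  have h1 : supp U ⊆ (rep U).image (fun p => p.1) ∪ (rep U).image (fun p => p.2) := by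
    intro x hx
    unfold supp at hx
    rw [Finset.mem_filter] at hx
    obtain ⟨_, e, he, hxe⟩ := hx
    rw [← mk_out e, Sym2.mem_iff] at hxe
    rw [Finset.mem_union, Finset.mem_image, Finset.mem_image]
    have hm : Quot.out e ∈ rep U := by
      unfold rep
      exact Finset.mem_image_of_mem _ he
    rcases hxe with h | h
    · exact Or.inl ⟨_, hm, h.symm⟩
    · exact Or.inr ⟨_, hm, h.symm⟩
  calc (supp U).card ≤ _ := Finset.card_le_card h1
    _ ≤ ((rep U).image (fun p => p.1)).card + ((rep U).image (fun p => p.2)).card :=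
      Finset.card_union_le _ _
    _ ≤ (rep U).card + (rep U).card := Nat.add_le_add Finset.card_image_le Finset.card_image_le
    _ = 2 * U.card := by rw [rep_card]; ring

lemma arcs_rep {n : ℕ} (U : Finset (Sym2 (Fin n))) : arcs (rep U) (supp U) = rep U := by
  unfold arcs
  ext p
  simp only [Finset.mem_filter]
  exact ⟨fun h => h.1, fun h => ⟨h, rep_supp U p h⟩⟩

open Classical in
lemma inc_one {n : ℕ} {X : Type} [Fintype X] {q : ℝ} (hq : 0 < q) {E : Finset (Sym2 (Fin n))}
    (hE : Inc q E) (T : Finset (X × X)) (C : Finset X) (χ : X → Fin n)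
    (hT : ∀ p ∈ T, p.1 ∈ C ∧ p.2 ∈ C) (hsub : im T χ ⊆ E) :
    1 ≤ (n : ℝ) ^ C.card * q ^ (im T χ).card := by
  have hb : build T ({χ} : Finset (X → Fin n)) = im T χ := by
    unfold build
    rw [Finset.singleton_biUnion]
  have h := inc_build hq hE T C ∅ (by
      intro p hp
      rw [Finset.union_empty]
      exact hT p hp) χ {χ} (by
      intro φ hφ x _
      rw [Finset.mem_singleton] at hφ
      rw [hφ]) (by rw [hb]; exact hsub)
  rw [hb, Finset.card_singleton, Finset.card_empty] at h
  simpa using h

/-- density -/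
lemma inc_density {n : ℕ} {q : ℝ} (hq : 0 < q) {E : Finset (Sym2 (Fin n))} (hE : Inc q E)
    {E' : Finset (Sym2 (Fin n))} (hE' : E' ⊆ E) :
    1 ≤ (n : ℝ) ^ (supp E').card * q ^ E'.card := by
  have h := inc_one hq hE (rep E') (supp E') id (rep_supp E') (by rw [im_rep]; exact hE')
  rwa [im_rep] at h

open Classical in
lemma count_perm' {n : ℕ} {X : Type} [Fintype X] (j : X ↪ Fin n) (Q : (X ↪ Fin n) → Prop)
    [i1 : DecidablePred fun g : Equiv.Perm (Fin n) => Q (j.trans g.toEmbedding)]
    [i2 : DecidablePred Q] :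
    (univ.filter fun g : Equiv.Perm (Fin n) => Q (j.trans g.toEmbedding)).card
        * n.descFactorial (Fintype.card X)
      = n.factorial * (univ.filter fun φ : X ↪ Fin n => Q φ).card := by
  have h := count_perm j Q
  have h0 : Fintype.card (X ↪ Fin n) = n.descFactorial (Fintype.card X) := by
    rw [Fintype.card_embedding_eq, Fintype.card_fin]
  rw [h0] at h
  have h1 : (univ.filter fun g : Equiv.Perm (Fin n) => Q (j.trans g.toEmbedding)).card =
      (@Finset.filter _ (fun g : Equiv.Perm (Fin n) => Q (j.trans g.toEmbedding))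
        (fun _ => Classical.propDecidable _) univ).card := by
    apply congrArg Finset.card
    ext x
    simp only [Finset.mem_filter]
  have h2 : (univ.filter fun φ : X ↪ Fin n => Q φ).card =
      (@Finset.filter _ (fun φ : X ↪ Fin n => Q φ)
        (fun _ => Classical.propDecidable _) univ).card := by
    apply congrArg Finset.card
    ext x
    simp only [Finset.mem_filter]
  rw [h1, h2]
  refine h.trans ?_
  congr 2

open Classical in
lemma exists_out {n : ℕ} {q : ℝ} (hn : 3 ≤ n) (hq : 0 < q) (hq1 : 1 ≤ Real.log (1 / q))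
    {E : Finset (Sym2 (Fin n))} (hE : Inc q E) (hdiag : ∀ e ∈ E, ¬ e.IsDiag)
    {N M : ℕ} (hN : N = ⌈Real.log (1 / q)⌉₊)
    (hM : M = ⌈Real.log n / Real.log (1 / q) * N⌉₊) :
    ∃ out : Fin n → Fin n → Prop,
      (∀ x, (univ.filter fun y => out x y).card ≤ M) ∧
      (∀ (C : Finset (Fin n)) (E' : Finset (Sym2 (Fin n))), E' ⊆ E →
        (∀ e ∈ E', ∃ x ∈ C, ∃ y, e = s(x, y) ∧ (y ∈ C ∨ ¬ out y x)) →
        N * E'.card ≤ M * C.card) := by
  have hN0 : 0 < N := by
    rw [hN]
    exact Nat.ceil_pos.mpr (by linarith)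
  have hd : ∀ E' ⊆ E, N * E'.card ≤
      M * (univ.filter fun x : Fin n => ∃ e ∈ E', x ∈ e).card := by
    intro E' hE'
    have h1 := inc_density hq hE hE'
    have hn0 : (0 : ℝ) < n := by
      exact_mod_cast (by omega : 0 < n)
    have h2 := Real.log_le_log one_pos h1
    rw [Real.log_one, Real.log_mul (by positivity) (by positivity), Real.log_pow,
      Real.log_pow] at h2
    have h5 : Real.log (1 / q) = - Real.log q := by
      rw [one_div, Real.log_inv]
    set l := Real.log (1 / q) with hl
    have hl0 : 0 < l := by linarith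
    have h6 : (E'.card : ℝ) * l ≤ (supp E').card * Real.log n := by
      rw [h5]
      linarith
    have h7 : (E'.card : ℝ) ≤ Real.log n / l * (supp E').card := by
      rw [div_mul_eq_mul_div, le_div_iff₀ hl0]
      linarith
    have h8 : (N : ℝ) * E'.card ≤ M * (supp E').card := by
      have h9 : Real.log n / l * N ≤ M := by
        rw [hM]
        exact Nat.le_ceil _
      calc (N : ℝ) * E'.card ≤ N * (Real.log n / l * (supp E').card) :=
            mul_le_mul_of_nonneg_left h7 (by positivity)
        _ = (Real.log n / l * N) * (supp E').card := by ring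
        _ ≤ M * (supp E').card := mul_le_mul_of_nonneg_right h9 (by positivity)
    exact_mod_cast h8
  obtain ⟨out, _, _, h3, h4⟩ := exists_orientation E hdiag N M hN0 hd
  exact ⟨out, h3, h4⟩

open Classical in
/-- Maps of `V` into `E`. -/
theorem cc_bound {n : ℕ} {q K : ℝ} (hn : 3 ≤ n) (hq : 0 < q) (hq1 : 1 ≤ Real.log (1 / q))
    {E : Finset (Sym2 (Fin n))} (hEn : E.Nonempty) (hE : Inc q E)
    (hdiag : ∀ e ∈ E, ¬ e.IsDiag)
    (hK1 : Real.exp 2 + 1 ≤ K)
    (hK : 8 * ((132 * Real.exp 19) ^ 4 *
      (Real.log n) ^ (2 * Real.log (1 / q) / Real.log n)) ≤ K)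
    (V : Finset (Sym2 (Fin n))) :
    cc (symRep n) E V ≤ (Real.exp 2 * K * q) ^ V.card * n.factorial := by
  have hexp : 0 < Real.exp 2 := Real.exp_pos 2
  have hK0 : 0 < K := by linarith
  have hqn : 1 ≤ (n : ℝ) ^ 2 * q := by
    obtain ⟨e, he⟩ := hEn
    have h1 := inc_density hq hE (Finset.singleton_subset_iff.mpr he)
    have h2 : (supp ({e} : Finset (Sym2 (Fin n)))).card ≤ 2 := by
      have := supp_card_le ({e} : Finset (Sym2 (Fin n)))
      rwa [Finset.card_singleton, mul_one] at this
    have hn1 : (1 : ℝ) ≤ n := by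
      exact_mod_cast (by omega : 1 ≤ n)
    rw [Finset.card_singleton, pow_one] at h1
    refine h1.trans ?_
    apply mul_le_mul_of_nonneg_right _ hq.le
    exact pow_le_pow_right₀ hn1 h2
  rw [cc_eq_card]
  by_cases hV : ∃ e ∈ V, e.IsDiag
  · obtain ⟨e, he, hed⟩ := hV
    have h1 : (univ.filter fun g : Equiv.Perm (Fin n) => act g V ⊆ E) = ∅ := by
      rw [Finset.filter_eq_empty_iff]
      intro g _ h
      have h2 : Sym2.map g e ∈ act g V := by
        unfold act
        rw [Finset.mem_map]
        exact ⟨e, he, rfl⟩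
      apply hdiag _ (h h2)
      induction e with
      | _ a b =>
        rw [Sym2.mk_isDiag_iff] at hed
        rw [Sym2.map_mk, Sym2.mk_isDiag_iff]
        exact congrArg g hed
    rw [h1]
    simp only [Finset.card_empty, Nat.cast_zero]
    positivity
  · push Not at hV
    set N := ⌈Real.log (1 / q)⌉₊ with hN
    set M := ⌈Real.log n / Real.log (1 / q) * N⌉₊ with hM
    obtain ⟨out, hout, hdens⟩ := exists_out hn hq hq1 hE hdiag hN hM
    set B := supp V with hB
    set A := rep V with hA
    have hA2 : ∀ p ∈ A, p.1 ≠ p.2 := by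
      intro p hp h
      rw [hA] at hp
      unfold rep at hp
      rw [Finset.mem_image] at hp
      obtain ⟨e, he, rfl⟩ := hp
      apply hV e he
      rw [← mk_out e, Sym2.mk_isDiag_iff]
      exact h
    let v0 : Fin n := ⟨0, by omega⟩
    have h1 := emb_final hn hq hq1 hqn hE hN hM hout hdens (rep_simp V) hA2 v0 hK1 hK _ B rfl
    rw [arcs_rep, rep_card] at h1
    let j : {x // x ∈ B} ↪ Fin n := Function.Embedding.subtype _
    let Q : ({x // x ∈ B} ↪ Fin n) → Prop := fun φ =>
      ∀ p : {x // x ∈ B} × {x // x ∈ B}, ((p.1 : Fin n), (p.2 : Fin n)) ∈ A →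
        s(φ p.1, φ p.2) ∈ E
    have h2 := count_perm' j Q
    have h3 : (univ.filter fun g : Equiv.Perm (Fin n) => act g V ⊆ E) =
        univ.filter fun g : Equiv.Perm (Fin n) => Q (j.trans g.toEmbedding) := by
      ext g
      rw [Finset.mem_filter, Finset.mem_filter]
      constructor
      · rintro ⟨_, h⟩
        refine ⟨Finset.mem_univ _, ?_⟩
        intro p hp
        rw [hA] at hp
        unfold rep at hp
        rw [Finset.mem_image] at hp
        obtain ⟨e, he, hep⟩ := hp
        apply h
        unfold act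
        rw [Finset.mem_map]
        refine ⟨e, he, ?_⟩
        rw [← mk_out e, hep]
        rfl
      · rintro ⟨_, h⟩
        refine ⟨Finset.mem_univ _, ?_⟩
        intro z hz
        unfold act at hz
        rw [Finset.mem_map] at hz
        obtain ⟨e, he, rfl⟩ := hz
        have hm : Quot.out e ∈ A := by
          rw [hA]
          unfold rep
          exact Finset.mem_image_of_mem _ he
        have hs := rep_supp V _ hm
        have h4 := h (⟨_, hs.1⟩, ⟨_, hs.2⟩) hm
        have h5 : Sym2.map g e = s(g (Quot.out e).1, g (Quot.out e).2) := by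
          conv_lhs => rw [← mk_out e]
          rfl
        show Sym2.map g e ∈ E
        rw [h5]
        exact h4
    have h4 : (univ.filter fun φ : {x // x ∈ B} ↪ Fin n => Q φ).card ≤
        (Emb E A v0 B).card := by
      let ext : ({x // x ∈ B} ↪ Fin n) → Fin n → Fin n :=
        fun φ x => if hx : x ∈ B then φ ⟨x, hx⟩ else v0
      have ext_pos : ∀ φ x (hx : x ∈ B), ext φ x = φ ⟨x, hx⟩ := fun φ x hx => dif_pos hx
      have ext_neg : ∀ φ x, x ∉ B → ext φ x = v0 := fun φ x hx => dif_neg hx
      apply Finset.card_le_card_of_injOn ext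
      · intro φ hφ
        rw [Finset.mem_coe, Finset.mem_filter] at hφ
        rw [Finset.mem_coe, mem_Emb]
        refine ⟨fun x hx => ext_neg φ x hx, ?_, ?_⟩
        · intro a ha b hb hab
          rw [ext_pos φ a ha, ext_pos φ b hb] at hab
          have := φ.injective hab
          exact congrArg Subtype.val this
        · intro p hp h5 h6
          rw [ext_pos φ _ h5, ext_pos φ _ h6]
          exact hφ.2 (⟨p.1, h5⟩, ⟨p.2, h6⟩) hp
      · intro φ _ ψ _ h
        ext x
        have h5 := congrFun h x.1
        rw [ext_pos φ _ x.2, ext_pos ψ _ x.2] at h5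
        rw [h5]
    rw [h3]
    rw [Fintype.card_coe] at h2
    have hBn : B.card ≤ n := by
      have := Finset.card_le_univ B
      rwa [Fintype.card_fin] at this
    have h5 : (0 : ℝ) < (n.descFactorial B.card : ℕ) := by
      have := Nat.descFactorial_pos.mpr hBn
      exact_mod_cast this
    have h6 : (n : ℝ) ^ B.card ≤ Real.exp B.card * (n.descFactorial B.card : ℕ) := by
      have h7 := pow_mul_fact_le hBn
      have h8 : (n.factorial : ℕ) = (n - B.card).factorial * n.descFactorial B.card :=
        (Nat.factorial_mul_descFactorial hBn).symm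
      rw [h8] at h7
      push_cast at h7
      have h9 : (0 : ℝ) < ((n - B.card).factorial : ℕ) := by
        exact_mod_cast Nat.factorial_pos _
      have h10 : (n : ℝ) ^ B.card * ((n - B.card).factorial : ℕ) ≤
          (Real.exp B.card * (n.descFactorial B.card : ℕ)) * ((n - B.card).factorial : ℕ) := by
        calc _ ≤ _ := h7
          _ = _ := by ring
      exact le_of_mul_le_mul_right h10 h9
    have h7 : Real.exp B.card ≤ Real.exp 2 ^ V.card := by
      rw [← Real.exp_nat_mul]
      apply Real.exp_le_exp.mpr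
      have := supp_card_le V
      have h8 : (B.card : ℝ) ≤ 2 * V.card := by exact_mod_cast this
      linarith
    have h8 : ((univ.filter fun g : Equiv.Perm (Fin n) => Q (j.trans g.toEmbedding)).card : ℝ) *
        (n.descFactorial B.card : ℕ) ≤
        ((Real.exp 2 * K * q) ^ V.card * n.factorial) * (n.descFactorial B.card : ℕ) := by
      have h9 := congrArg (Nat.cast (R := ℝ)) h2
      rw [Nat.cast_mul, Nat.cast_mul] at h9
      rw [h9]
      calc (n.factorial : ℝ) * (univ.filter fun φ : {x // x ∈ B} ↪ Fin n => Q φ).card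
          ≤ n.factorial * (Emb E A v0 B).card := by
            apply mul_le_mul_of_nonneg_left _ (by positivity)
            exact_mod_cast h4
        _ ≤ n.factorial * ((n : ℝ) ^ B.card * (K * q) ^ V.card) :=
            mul_le_mul_of_nonneg_left h1 (by positivity)
        _ ≤ n.factorial * ((Real.exp B.card * (n.descFactorial B.card : ℕ)) *
            (K * q) ^ V.card) := by
            apply mul_le_mul_of_nonneg_left _ (by positivity)
            exact mul_le_mul_of_nonneg_right h6 (by positivity)
        _ ≤ n.factorial * ((Real.exp 2 ^ V.card * (n.descFactorial B.card : ℕ)) *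
            (K * q) ^ V.card) := by
            apply mul_le_mul_of_nonneg_left _ (by positivity)
            apply mul_le_mul_of_nonneg_right _ (by positivity)
            exact mul_le_mul_of_nonneg_right h7 h5.le
        _ = _ := by
            rw [mul_assoc (Real.exp 2) K q, mul_pow (Real.exp 2) (K * q)]
            ring
    exact le_of_mul_le_mul_right h8 h5

end VP064
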