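import Vale.Agent.P064.Or.Orb

/-!
# The number of rooted extensions
-/

namespace VP064

open Finset

open Classical in
theorem ext_count {n : ℕ} {X : Type} [Fintype X] {q : ℝ} (hq : 0 < q)
    {E : Finset (Sym2 (Fin n))} (hE : Inc q E) (T : Finset (X × X)) (C Y : Finset X)
    (hT : ∀ p ∈ T, p.1 ∈ C ∪ Y ∧ p.2 ∈ C ∪ Y) (hTC : ∀ p ∈ T, p.1 ∈ C ∨ p.2 ∈ C)
    (hTinj : ∀ p ∈ T, ∀ p' ∈ T, s(p.1, p.2) = s(p'.1, p'.2) → p = p')
    (χ : X → Fin n) (F : Finset (X → Fin n))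
    (h1 : ∀ φ ∈ F, ∀ x, x ∉ C → φ x = χ x)
    (h2 : ∀ φ ∈ F, ∀ a ∈ C ∪ Y, ∀ b ∈ C ∪ Y, φ a = φ b → a = b)
    (h3 : ∀ φ ∈ F, im T φ ⊆ E) (K : ℕ)
    (hK : ∀ c ∈ C, ∀ u : Fin n, (F.filter fun φ => φ c = u).card ≤ K) (hC : C.Nonempty) :
    ∃ m : ℕ, F.card ≤ m * (C.card ^ 2 * K) ∧
      ((m.factorial : ℕ) : ℝ) ≤
        (n : ℝ) ^ Y.card * ((n : ℝ) ^ C.card * q ^ T.card) ^ m := by
  set good : Finset (X → Fin n) → Prop := fun Φ =>
    ∀ φ ∈ Φ, ∀ φ' ∈ Φ, φ ≠ φ' → ∀ c ∈ C, ∀ c' ∈ C, φ c ≠ φ' c' with hgood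
  have hne : (F.powerset.filter good).Nonempty :=
    ⟨∅, by simp [hgood]⟩
  obtain ⟨Φ, hΦmem, hΦmax⟩ := exists_max_image (F.powerset.filter good) Finset.card hne
  rw [mem_filter, mem_powerset] at hΦmem
  obtain ⟨hΦF, hΦg⟩ := hΦmem
  -- every member of `F` meets some member of `Φ`
  have hcover : ∀ φ ∈ F, ∃ φ' ∈ Φ, ∃ c ∈ C, ∃ c' ∈ C, φ c = φ' c' := by
    intro φ hφ
    by_cases hmem : φ ∈ Φ
    · obtain ⟨c, hc⟩ := hC
      exact ⟨φ, hmem, c, hc, c, hc, rfl⟩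
    · by_contra hcon
      push Not at hcon
      have hg : good (insert φ Φ) := by
        intro φ1 hφ1 φ2 hφ2 hne12 c hc c' hc'
        rw [mem_insert] at hφ1 hφ2
        rcases hφ1 with rfl | hφ1
        · rcases hφ2 with rfl | hφ2
          · exact absurd rfl hne12
          · exact hcon φ2 hφ2 c hc c' hc'
        · rcases hφ2 with rfl | hφ2
          · exact fun h => hcon φ1 hφ1 c' hc' c hc h.symm
          · exact hΦg φ1 hφ1 φ2 hφ2 hne12 c hc c' hc'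
      have hm : insert φ Φ ∈ F.powerset.filter good := by
        rw [mem_filter, mem_powerset]
        exact ⟨insert_subset hφ hΦF, hg⟩
      have := hΦmax _ hm
      rw [card_insert_of_notMem hmem] at this
      omega
  have hcard : F.card ≤ Φ.card * (C.card ^ 2 * K) := by
    have hsub : F ⊆ Φ.biUnion fun φ' => C.biUnion fun c' => C.biUnion fun c =>
        F.filter fun φ => φ c = φ' c' := by
      intro φ hφ
      obtain ⟨φ', hφ', c, hc, c', hc', he⟩ := hcover φ hφ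
      simp only [mem_biUnion, mem_filter]
      exact ⟨φ', hφ', c', hc', c, hc, hφ, he⟩
    calc F.card ≤ _ := card_le_card hsub
      _ ≤ Φ.card * (C.card * (C.card * K)) := by
          refine card_biUnion_le_card_mul _ _ _ fun φ' _ => ?_
          refine card_biUnion_le_card_mul _ _ _ fun c' _ => ?_
          exact card_biUnion_le_card_mul _ _ _ fun c hc => hK c hc _
      _ = Φ.card * (C.card ^ 2 * K) := by ring
  -- disjointness
  have hdis : ∀ φ ∈ Φ, ∀ φ' ∈ Φ, φ ≠ φ' → ∀ u ∈ C, ∀ z ∈ C ∪ Y, φ u ≠ φ' z := by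
    intro φ hφ φ' hφ' hne' u hu z hz he
    by_cases hzC : z ∈ C
    · exact hΦg φ hφ φ' hφ' hne' u hu z hzC he
    · have e1 := h1 φ (hΦF hφ) z hzC
      have e2 := h1 φ' (hΦF hφ') z hzC
      have e3 : φ u = φ z := by rw [he, e2, e1]
      have := h2 φ (hΦF hφ) u (mem_union_left _ hu) z hz e3
      exact hzC (this ▸ hu)
  have himcard : ∀ φ ∈ Φ, (im T φ).card = T.card := by
    intro φ hφ
    unfold im
    refine card_image_of_injOn ?_
    intro p hp p' hp' he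
    have hp1 := hT p hp
    have hp2 := hT p' hp'
    apply hTinj p hp p' hp'
    simp only [Sym2.eq_iff] at he ⊢
    rcases he with ⟨ha, hb⟩ | ⟨ha, hb⟩
    · exact Or.inl ⟨h2 φ (hΦF hφ) _ hp1.1 _ hp2.1 ha, h2 φ (hΦF hφ) _ hp1.2 _ hp2.2 hb⟩
    · exact Or.inr ⟨h2 φ (hΦF hφ) _ hp1.1 _ hp2.2 ha, h2 φ (hΦF hφ) _ hp1.2 _ hp2.1 hb⟩
  have hbuild : (build T Φ).card = Φ.card * T.card := by
    unfold build
    rw [card_biUnion]
    · rw [sum_congr rfl himcard, sum_const, smul_eq_mul]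
    · intro φ hφ φ' hφ' hne'
      rw [Function.onFun, disjoint_left]
      intro x hx hx'
      unfold im at hx hx'
      rw [mem_image] at hx hx'
      obtain ⟨p, hp, rfl⟩ := hx
      obtain ⟨p', hp', he⟩ := hx'
      have hp2 := hT p' hp'
      rw [Sym2.eq_iff] at he
      rcases hTC p hp with hc | hc
      · rcases he with ⟨ha, hb⟩ | ⟨ha, hb⟩
        · exact hdis φ hφ φ' hφ' hne' _ hc _ hp2.1 ha.symm
        · exact hdis φ hφ φ' hφ' hne' _ hc _ hp2.2 hb.symm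
      · rcases he with ⟨ha, hb⟩ | ⟨ha, hb⟩
        · exact hdis φ hφ φ' hφ' hne' _ hc _ hp2.2 hb.symm
        · exact hdis φ hφ φ' hφ' hne' _ hc _ hp2.1 ha.symm
  have hsubE : build T Φ ⊆ E := by
    unfold build
    rw [biUnion_subset]
    exact fun φ hφ => h3 φ (hΦF hφ)
  have hinc := inc_build hq hE T C Y hT χ Φ (fun φ hφ => h1 φ (hΦF hφ)) hsubE
  refine ⟨Φ.card, hcard, hinc.trans (le_of_eq ?_)⟩
  rw [hbuild, mul_pow, ← pow_mul q, mul_comm T.card]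
  ring

end VP064
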