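import Vale.Agent.P064.Or.Conv

/-!
# The orientation theorem: `p̃_E ≤ C (log n)^(2ε) p_E` where `p_E = n^(-ε)`
-/

namespace VP064

open Finset

lemma edgesOf_not_diag {n : ℕ} {W : Type} [Fintype W] (H : SimpleGraph W) (j : W ↪ Fin n) :
    ∀ e ∈ edgesOf H j, ¬ e.IsDiag := by
  classical
  intro e he
  unfold edgesOf at he
  rw [SimpleGraph.mem_edgeFinset] at he
  exact SimpleGraph.not_isDiag_of_mem_edgeSet _ he

open Classical in
/-- The condition defining `p_E` makes the edge set incompressible. -/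
theorem inc_of_pE {n : ℕ} {W : Type} [Fintype W] (H : SimpleGraph W) (j : W ↪ Fin n)
    {p : ℝ} (hp0 : 0 < p) (hp : ∀ F : H.Subgraph, 1 / 2 ≤ expCopies n p F.coe) :
    Inc (2 * p) (edgesOf H j) := by
  have hcard : (Fintype.card (Equiv.Perm (Fin n)) : ℝ) = n.factorial := by
    rw [Fintype.card_perm, Fintype.card_fin]
  intro U hU
  rw [← cc_eq_card]
  by_cases hU0 : U = ∅
  · subst hU0
    rw [cc_empty, hcard]
    simp
  · have h1 := cc_graph (subOf H j U).coe (jj j (subOf H j U)) (gr U)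
    rw [edgesOf_subOf H j U hU, gr_edgeFinset H j U hU] at h1
    have h2 : ((gr U).copyCount (subOf H j U).coe : ℝ) ≤ 1 := by
      exact_mod_cast copyCount_gr_le H j U hU
    have h3 := hp (subOf H j U)
    rw [expCopies_eq, ← edgesOf_card (subOf H j U).coe (jj j (subOf H j U)),
      edgesOf_subOf H j U hU] at h3
    set N : ℝ := ((⊤ : SimpleGraph (Fin n)).copyCount (subOf H j U).coe : ℝ) with hN
    have hNpos : 0 < N := by
      by_contra hcon
      have : N = 0 := le_antisymm (not_lt.mp hcon) (by rw [hN]; positivity)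
      rw [this] at h3
      norm_num at h3
    have hUc : 1 ≤ U.card := Finset.card_pos.mpr (Finset.nonempty_iff_ne_empty.mpr hU0)
    have h4 : 1 ≤ N * (2 * p) ^ U.card := by
      rw [mul_pow]
      have h5 : (2 : ℝ) ≤ 2 ^ U.card := by
        calc (2 : ℝ) = 2 ^ 1 := by norm_num
          _ ≤ 2 ^ U.card := pow_le_pow_right₀ (by norm_num) hUc
      have h6 : 0 ≤ N * p ^ U.card := by positivity
      nlinarith
    have hcc : 0 ≤ cc (symRep n) U U := cc_nonneg _ _ _
    have hfac : (0 : ℝ) ≤ n.factorial := by positivity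
    calc cc (symRep n) U U = cc (symRep n) U U * 1 := by ring
      _ ≤ cc (symRep n) U U * (N * (2 * p) ^ U.card) :=
        mul_le_mul_of_nonneg_left h4 hcc
      _ = (cc (symRep n) U U * N) * (2 * p) ^ U.card := by ring
      _ = (n.factorial * ((gr U).copyCount (subOf H j U).coe : ℝ)) * (2 * p) ^ U.card := by
        rw [h1]
      _ ≤ (n.factorial * 1) * (2 * p) ^ U.card := by
        apply mul_le_mul_of_nonneg_right _ (by positivity)
        exact mul_le_mul_of_nonneg_left h2 hfac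
      _ = _ := by ring

/-- The bound on copies from the bound on translates. -/
lemma copies_of_cc {n : ℕ} {W : Type} [Fintype W] (H : SimpleGraph W) (j : W ↪ Fin n)
    {L : ℝ} (hL : ∀ V : Finset (Sym2 (Fin n)),
      cc (symRep n) (edgesOf H j) V ≤ L ^ V.card * n.factorial) (F : H.Subgraph) :
    (H.copyCount F.coe : ℝ) ≤ ((⊤ : SimpleGraph (Fin n)).copyCount F.coe : ℝ) *
      L ^ F.coe.edgeSet.ncard := by
  classical
  have h1 : (H.copyCount F.coe : ℝ) ≤ ((H.map j).copyCount F.coe : ℝ) := by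
    exact_mod_cast copyCount_le_of_copy _ _ (copyMap H j) F.coe
  have h2 := cc_graph F.coe (jj j F) (H.map j)
  have h3 := hL (edgesOf F.coe (jj j F))
  rw [edgesOf_card F.coe (jj j F)] at h3
  have h4 : ∀ inst : Fintype (H.map j).edgeSet,
      @SimpleGraph.edgeFinset _ (H.map j) inst = edgesOf H j := by
    intro inst
    exact edgeFinset_inst _ _ _
  rw [h4] at h2
  have hfac : (0 : ℝ) < n.factorial := by exact_mod_cast n.factorial_pos
  have hN : (0 : ℝ) ≤ ((⊤ : SimpleGraph (Fin n)).copyCount F.coe : ℝ) := by positivity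
  have h5 := mul_le_mul_of_nonneg_right h3 hN
  rw [h2] at h5
  have h6 : (n.factorial : ℝ) * ((H.map j).copyCount F.coe : ℝ) ≤
      n.factorial * (((⊤ : SimpleGraph (Fin n)).copyCount F.coe : ℝ) *
        L ^ F.coe.edgeSet.ncard) := by
    calc _ ≤ _ := h5
      _ = _ := by ring
  exact h1.trans (le_of_mul_le_mul_left h6 hfac)

theorem pEt_of_cc {n : ℕ} {W : Type} [Fintype W] (H : SimpleGraph W) (j : W ↪ Fin n)
    {L : ℝ} (hL0 : 0 ≤ L) (hL : ∀ V : Finset (Sym2 (Fin n)),
      cc (symRep n) (edgesOf H j) V ≤ L ^ V.card * n.factorial) :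
    pEt n H ≤ L := by
  classical
  have hmem : min 1 L ∈ {p : ℝ | 0 ≤ p ∧ p ≤ 1 ∧
      ∀ F : H.Subgraph, (H.copyCount F.coe : ℝ) / 2 ≤ expCopies n p F.coe} := by
    refine ⟨le_min zero_le_one hL0, min_le_left _ _, ?_⟩
    intro F
    have hc0 : (0 : ℝ) ≤ (H.copyCount F.coe : ℝ) := by positivity
    rw [expCopies_eq]
    rcases le_total 1 L with h | h
    · rw [min_eq_left h, one_pow, mul_one]
      have := copyCount_le_top H j F
      linarith
    · rw [min_eq_right h]
      have := copies_of_cc H j hL F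
      linarith
  have hbdd : BddBelow {p : ℝ | 0 ≤ p ∧ p ≤ 1 ∧
      ∀ F : H.Subgraph, (H.copyCount F.coe : ℝ) / 2 ≤ expCopies n p F.coe} :=
    ⟨0, fun x hx => hx.1⟩
  have h1 : pEt n H ≤ min 1 L := csInf_le hbdd hmem
  exact h1.trans (min_le_right _ _)

lemma fam_of_cc {n : ℕ} {W : Type} [Fintype W] (H : SimpleGraph W) (j : W ↪ Fin n)
    {L : ℝ} (hL : ∀ V : Finset (Sym2 (Fin n)),
      cc (symRep n) (edgesOf H j) V ≤ L ^ V.card * n.factorial)
    (Z : Finset (XX n))
    (inst : DecidablePred fun g : Equiv.Perm (Fin n) => Z ⊆ fam (edgesOf H j) g) :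
    ((@Finset.filter _ (fun g : Equiv.Perm (Fin n) => Z ⊆ fam (edgesOf H j) g) inst
      univ).card : ℝ) ≤ L ^ Z.card * Fintype.card (Equiv.Perm (Fin n)) := by
  classical
  have hcard : (Fintype.card (Equiv.Perm (Fin n)) : ℝ) = n.factorial := by
    rw [Fintype.card_perm, Fintype.card_fin]
  have h1 := hL (Z.map (Function.Embedding.subtype _))
  rw [Finset.card_map, cc_eq_card] at h1
  rw [hcard]
  refine le_trans (le_of_eq ?_) h1
  congr 1
  apply Finset.card_bij (fun g _ => g⁻¹)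
  · intro g hg
    rw [Finset.mem_filter] at hg ⊢
    exact ⟨Finset.mem_univ _, (fam_subset_iff _ _ _).mp hg.2⟩
  · intro a _ b _ hab
    exact inv_injective hab
  · intro g hg
    rw [Finset.mem_filter] at hg
    refine ⟨g⁻¹, ?_, inv_inv g⟩
    rw [Finset.mem_filter, fam_subset_iff, inv_inv]
    exact ⟨Finset.mem_univ _, hg.2⟩

theorem pC_of_cc {n : ℕ} {W : Type} [Fintype W] (H : SimpleGraph W) (hn : 2 ≤ n)
    (hH : H ≠ ⊥) (j : W ↪ Fin n)
    {L : ℝ} (hL0 : 0 < L) (hL : ∀ V : Finset (Sym2 (Fin n)),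
      cc (symRep n) (edgesOf H j) V ≤ L ^ V.card * n.factorial) :
    pC n H ≤ 192 * Real.log n * L := by
  classical
  have hm0 := edgesOf_card_pos H j hH
  have hm := edgesOf_card_le H j
  have hln : 0 < Real.log n := Real.log_pos (by exact_mod_cast (by omega : 1 < n))
  set P : ℝ := 64 * L * (Nat.log 2 (edgesOf H j).card + 1) with hP
  have hPle : P ≤ 192 * Real.log n * L := by
    have h1 := natlog_bound hn hm0 hm
    calc P = 64 * L * ((Nat.log 2 (edgesOf H j).card : ℝ) + 1) := hP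
      _ ≤ 64 * L * (3 * Real.log n) := mul_le_mul_of_nonneg_left h1 (by positivity)
      _ = _ := by ring
  have hP0 : 0 ≤ P := by positivity
  have hbdd : BddBelow {p : ℝ | 0 ≤ p ∧ p ≤ 1 ∧ 1 / 2 ≤ probContains n p H} :=
    ⟨0, fun x hx => hx.1⟩
  rcases le_total P 1 with h | h
  · have hmem : P ∈ {p : ℝ | 0 ≤ p ∧ p ≤ 1 ∧ 1 / 2 ≤ probContains n p H} := by
      refine ⟨hP0, h, ?_⟩
      have hs := spread_lemma (fam (edgesOf H j)) (edgesOf H j).card
        (fun g => fam_card_le _ g) L hL0 (fun Z => fam_of_cc H j hL Z _) P le_rfl h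
      rw [probContains_eq]
      refine hs.trans ?_
      apply Finset.sum_le_sum
      intro A _
      by_cases hA : ∃ g, fam (edgesOf H j) g ⊆ A
      · rw [if_pos hA]
        obtain ⟨g, hg⟩ := hA
        rw [if_pos (contains_of_fam H j g A hg)]
      · rw [if_neg hA]
        split_ifs
        · exact bw_nn hP0 h A
        · exact le_rfl
    exact (csInf_le hbdd hmem).trans hPle
  · have hmem : (1 : ℝ) ∈ {p : ℝ | 0 ≤ p ∧ p ≤ 1 ∧ 1 / 2 ≤ probContains n p H} :=
      ⟨zero_le_one, le_rfl, probContains_one H j⟩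
    exact (csInf_le hbdd hmem).trans (h.trans hPle)

/-- `p_E` is attained. -/
theorem pE_mem {n : ℕ} {W : Type} [Fintype W] (H : SimpleGraph W)
    (hW : Fintype.card W ≤ n) :
    0 ≤ pE n H ∧ pE n H ≤ 1 ∧ ∀ F : H.Subgraph, 1 / 2 ≤ expCopies n (pE n H) F.coe := by
  classical
  have hclosed : IsClosed {p : ℝ | 0 ≤ p ∧ p ≤ 1 ∧
      ∀ F : H.Subgraph, 1 / 2 ≤ expCopies n p F.coe} := by
    have h1 : {p : ℝ | 0 ≤ p ∧ p ≤ 1 ∧ ∀ F : H.Subgraph, 1 / 2 ≤ expCopies n p F.coe} =
        Set.Icc 0 1 ∩ ⋂ F : H.Subgraph, {p : ℝ | 1 / 2 ≤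
          ((⊤ : SimpleGraph (Fin n)).copyCount F.coe : ℝ) * p ^ F.coe.edgeSet.ncard} := by
      ext p
      simp only [Set.mem_setOf_eq, Set.mem_inter_iff, Set.mem_Icc, Set.mem_iInter,
        expCopies_eq]
      tauto
    rw [h1]
    apply isClosed_Icc.inter
    apply isClosed_iInter
    intro F
    exact isClosed_le continuous_const (continuous_const.mul (continuous_pow _))
  have h := hclosed.csInf_mem (pE_set_nonempty H hW) ⟨0, fun x hx => hx.1⟩
  exact h

/-- the constant -/
noncomputable def CC : ℝ := 2 * Real.exp 2 * (8 * (132 * Real.exp 19) ^ 4 + Real.exp 2 + 1)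

lemma CC_pos : 0 < CC := by
  unfold CC
  have := Real.exp_pos 2
  positivity

/-- Main bound on translates. -/
theorem main_or {n : ℕ} {W : Type} [Fintype W] (H : SimpleGraph W) (hn : 3 ≤ n)
    (hH : H ≠ ⊥) (j : W ↪ Fin n) {p : ℝ} (hp0 : 0 < p)
    (hpl : 1 ≤ Real.log (1 / (2 * p)))
    (hp : ∀ F : H.Subgraph, 1 / 2 ≤ expCopies n p F.coe) (V : Finset (Sym2 (Fin n))) :
    cc (symRep n) (edgesOf H j) V ≤
      (CC * (Real.log n) ^ (2 * Real.log (1 / p) / Real.log n) * p) ^ V.card *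
        n.factorial := by
  have hn3 : (3 : ℝ) ≤ n := by exact_mod_cast hn
  have hlogn : 1 ≤ Real.log n := by
    rw [Real.le_log_iff_exp_le (by linarith)]
    have := Real.exp_one_lt_d9
    linarith
  have he : 0 < Real.exp 2 := Real.exp_pos 2
  have hl0 : Real.log (1 / (2 * p)) ≤ Real.log (1 / p) := by
    apply Real.log_le_log (by positivity)
    apply one_div_le_one_div_of_le hp0
    linarith
  set x : ℝ := (Real.log n) ^ (2 * Real.log (1 / p) / Real.log n) with hx
  have hx1 : 1 ≤ x := by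
    apply Real.one_le_rpow hlogn
    apply div_nonneg _ (by linarith)
    linarith
  set K : ℝ := (8 * (132 * Real.exp 19) ^ 4 + Real.exp 2 + 1) * x with hK
  have hb : (0 : ℝ) ≤ 8 * (132 * Real.exp 19) ^ 4 := by positivity
  have hK1 : Real.exp 2 + 1 ≤ K := by
    calc Real.exp 2 + 1 ≤ (8 * (132 * Real.exp 19) ^ 4 + Real.exp 2 + 1) * 1 := by linarith
      _ ≤ K := mul_le_mul_of_nonneg_left hx1 (by positivity)
  have hK2 : 8 * ((132 * Real.exp 19) ^ 4 *
      (Real.log n) ^ (2 * Real.log (1 / (2 * p)) / Real.log n)) ≤ K := by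
    have h1 : (Real.log n) ^ (2 * Real.log (1 / (2 * p)) / Real.log n) ≤ x := by
      apply Real.rpow_le_rpow_of_exponent_le hlogn
      apply div_le_div_of_nonneg_right _ (by linarith)
      linarith
    calc 8 * ((132 * Real.exp 19) ^ 4 *
      (Real.log n) ^ (2 * Real.log (1 / (2 * p)) / Real.log n))
        ≤ 8 * ((132 * Real.exp 19) ^ 4 * x) := by
          apply mul_le_mul_of_nonneg_left _ (by norm_num)
          exact mul_le_mul_of_nonneg_left h1 (by positivity)
      _ = (8 * (132 * Real.exp 19) ^ 4) * x := by ring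
      _ ≤ K := by
        apply mul_le_mul_of_nonneg_right _ (by linarith)
        linarith
  have h1 := cc_bound hn (by positivity : 0 < 2 * p) hpl
    (Finset.card_pos.mp (edgesOf_card_pos H j hH)) (inc_of_pE H j hp0 hp)
    (edgesOf_not_diag H j) hK1 hK2 V
  refine h1.trans (le_of_eq ?_)
  congr 2
  rw [hK]
  unfold CC
  ring

/-- For `p` close to `1` everything is trivial. -/
lemma pEt_le_one {n : ℕ} {W : Type} [Fintype W] (H : SimpleGraph W) (j : W ↪ Fin n) :
    pEt n H ≤ 1 := by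
  classical
  apply csInf_le ⟨0, fun x hx => hx.1⟩
  refine ⟨zero_le_one, le_rfl, ?_⟩
  intro F
  rw [expCopies_eq, one_pow, mul_one]
  have := copyCount_le_top H j F
  have hc0 : (0 : ℝ) ≤ (H.copyCount F.coe : ℝ) := by positivity
  linarith

lemma pC_le_one {n : ℕ} {W : Type} [Fintype W] (H : SimpleGraph W) (j : W ↪ Fin n) :
    pC n H ≤ 1 :=
  csInf_le ⟨0, fun _ hx => hx.1⟩ ⟨zero_le_one, le_rfl, probContains_one H j⟩

theorem orient_main {n : ℕ} {W : Type} [Fintype W] (H : SimpleGraph W) (hn : 3 ≤ n)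
    (hW : Fintype.card W ≤ n) (hH : H ≠ ⊥) :
    pEt n H ≤ CC * (Real.log n) ^ (2 * Real.log (1 / pE n H) / Real.log n) * pE n H ∧
    pC n H ≤ 192 * Real.log n *
      (CC * (Real.log n) ^ (2 * Real.log (1 / pE n H) / Real.log n) * pE n H) := by
  obtain ⟨j⟩ := exists_emb hW
  obtain ⟨h0, h1, hp⟩ := pE_mem H hW
  set p := pE n H with hpdef
  have hp0 : 0 < p := p_pos H j hH h0 hp
  have hn3 : (3 : ℝ) ≤ n := by exact_mod_cast hn
  have hlogn : 1 ≤ Real.log n := by
    rw [Real.le_log_iff_exp_le (by linarith)]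
    have := Real.exp_one_lt_d9
    linarith
  have he : 0 < Real.exp 2 := Real.exp_pos 2
  set x : ℝ := (Real.log n) ^ (2 * Real.log (1 / p) / Real.log n) with hx
  have hlp : 0 ≤ Real.log (1 / p) := by
    apply Real.log_nonneg
    rw [le_div_iff₀ hp0]
    linarith
  have hx1 : 1 ≤ x := by
    apply Real.one_le_rpow hlogn
    apply div_nonneg _ (by linarith)
    linarith
  by_cases hpl : 1 ≤ Real.log (1 / (2 * p))
  · have h2 := main_or H hn hH j hp0 hpl hp
    have h3 : 0 < CC * x * p := by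
      have := CC_pos
      positivity
    exact ⟨pEt_of_cc H j h3.le h2, pC_of_cc H (by omega) hH j h3 h2⟩
  · have h2 : 1 / (2 * p) < Real.exp 1 := by
      by_contra hcon
      apply hpl
      rw [Real.le_log_iff_exp_le (by positivity)]
      exact not_lt.mp hcon
    have h3 : 1 ≤ CC * x * p := by
      have h4 : 1 < Real.exp 1 * (2 * p) := by
        rwa [div_lt_iff₀ (by positivity)] at h2
      have h5 : 2 * Real.exp 1 ≤ CC := by
        unfold CC
        have h6 : Real.exp 1 ≤ Real.exp 2 := Real.exp_le_exp.mpr (by norm_num)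
        have h7 : (1 : ℝ) ≤ 8 * (132 * Real.exp 19) ^ 4 + Real.exp 2 + 1 := by
          have : (0 : ℝ) ≤ 8 * (132 * Real.exp 19) ^ 4 := by positivity
          linarith
        calc 2 * Real.exp 1 ≤ 2 * Real.exp 2 := by linarith
          _ = 2 * Real.exp 2 * 1 := by ring
          _ ≤ _ := mul_le_mul_of_nonneg_left h7 (by positivity)
      have h8 : CC * 1 ≤ CC * x := mul_le_mul_of_nonneg_left hx1 CC_pos.le
      calc (1 : ℝ) ≤ 2 * Real.exp 1 * p := by linarith
        _ ≤ CC * x * p := mul_le_mul_of_nonneg_right (by linarith) hp0.le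
    refine ⟨(pEt_le_one H j).trans h3, (pC_le_one H j).trans ?_⟩
    nlinarith

end VP064
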