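import Mathlib

/-!
# The final numerical lemma
-/

namespace VP064

namespace NumAux

/-- `log y ≤ y / e`. -/
theorem log_le_div_exp {y : ℝ} (hy : 0 < y) : Real.log y ≤ y / Real.exp 1 := by
  have h1 := Real.add_one_le_exp (Real.log y - 1)
  rw [Real.exp_sub, Real.exp_log hy] at h1
  linarith

theorem inv_exp_le : (1 : ℝ) / Real.exp 1 ≤ 0.3679 := by
  rw [div_le_iff₀ (Real.exp_pos 1)]
  have := Real.exp_one_gt_d9
  linarith

theorem log_132_le : Real.log 132 ≤ 4.8833 := by
  have h1 : (132 : ℝ) = 2 ^ 7 * (33 / 32) := by norm_num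
  rw [h1, Real.log_mul (by norm_num) (by norm_num), Real.log_pow]
  have h2 := Real.log_two_lt_d9
  have h3 := Real.log_le_sub_one_of_pos (show (0 : ℝ) < 33 / 32 by norm_num)
  push_cast
  linarith

theorem log_three_gt : (1.09 : ℝ) < Real.log 3 := by
  rw [Real.lt_log_iff_exp_lt (by norm_num)]
  have h1 : Real.exp 1.09 = Real.exp 1 * Real.exp 0.09 := by
    rw [← Real.exp_add]; norm_num
  have h2 := Real.exp_one_lt_d9
  have h3 : Real.exp 0.09 ≤ 1.0943 := by
    have := Real.exp_bound' (x := 0.09) (by norm_num) (by norm_num) (n := 3) (by norm_num)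
    refine this.trans ?_
    norm_num [Finset.sum_range_succ, Nat.factorial]
  rw [h1]
  have h4 := Real.exp_pos 0.09
  nlinarith

/-- the scalar inequality -/
theorem scalar {x y c L v k : ℝ} (hx : 0 < x) (hy0 : 0 ≤ y) (hc0 : 0 ≤ c) (hc : c ≤ 4.8833)
    (hy : y ≤ 0.3679 * x) (hy2 : y ^ 2 ≤ 4 * 0.3679 ^ 2 * x) (hL0 : 0 ≤ L) (hL : L ≤ 2 * x)
    (hk : 0 ≤ k) (hv : v * (x - 2 * y) ≤ 2 * k * L) :
    v * (c + y) ≤ k * (4 * (c + 19) + 2 * L / x * y) := by
  have hD : 0.2642 * x ≤ x - 2 * y := by linarith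
  have hDpos : 0 < x - 2 * y := by linarith [mul_pos (show (0:ℝ) < 0.2642 by norm_num) hx]
  set D := x - 2 * y with hDdef
  have hcy : 0 ≤ c + y := by linarith
  have h1 : v ≤ 2 * k * L / D := by
    rw [le_div_iff₀ hDpos]; exact hv
  have h2 : v * (c + y) ≤ 2 * k * L / D * (c + y) := mul_le_mul_of_nonneg_right h1 hcy
  -- (2y/D)(c+y) ≤ 19
  have h3 : 2 * y * (c + y) ≤ 19 * D := by
    have h4 : y * c ≤ 0.3679 * x * 4.8833 := mul_le_mul hy hc hc0 (by positivity)
    nlinarith
  have h5 : L / D * (c + y) ≤ L / x * y + 2 * (c + 19) := by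
    have h6 : L / D * (c + y) = L / x * y + L / x * (c + 2 * y * (c + y) / D) := by
      field_simp
      rw [hDdef]
      ring
    have h7 : 2 * y * (c + y) / D ≤ 19 := by
      rw [div_le_iff₀ hDpos]; exact h3
    have h8 : L / x ≤ 2 := by rw [div_le_iff₀ hx]; exact hL
    have h9 : 0 ≤ L / x := by positivity
    have h10 : 0 ≤ c + 2 * y * (c + y) / D := by positivity
    rw [h6]
    have h11 : L / x * (c + 2 * y * (c + y) / D) ≤ 2 * (c + 19) :=
      mul_le_mul h8 (by linarith) h10 (by norm_num)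
    linarith
  calc v * (c + y) ≤ 2 * k * L / D * (c + y) := h2
    _ = 2 * k * (L / D * (c + y)) := by ring
    _ ≤ 2 * k * (L / x * y + 2 * (c + 19)) := mul_le_mul_of_nonneg_left h5 (by positivity)
    _ = k * (4 * (c + 19) + 2 * L / x * y) := by ring

end NumAux

open NumAux in
/-- The final numerical step: if the degrees are nearly at least `log n / log (1/q)` then the
factor `(132 log n)^v` is at most `K^k` with `K = C (log n)^(2/κ)`. Here `v` is the number of
vertices and `k` the number of edges; `d` lists the degrees. -/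
theorem core_num {n : ℕ} {ι : Type} (s : Finset ι) (d : ι → ℕ) (k : ℕ) {q : ℝ} (hn : 3 ≤ n)
    (hq : 0 < q) (hq1 : 1 ≤ Real.log (1 / q)) (hqn : 1 ≤ (n : ℝ) ^ 2 * q)
    (hk : ∑ i ∈ s, d i = 2 * k) (hd : ∀ i ∈ s, 1 ≤ d i)
    (hw : ∀ i ∈ s, (n : ℝ) * q ^ d i < d i * Real.log n) :
    (132 * Real.log n) ^ s.card ≤
      ((132 * Real.exp 19) ^ 4 * (Real.log n) ^ (2 * Real.log (1 / q) / Real.log n)) ^ k := by
  have hn0 : (0 : ℝ) < n := by
    have : 0 < n := by omega
    exact_mod_cast this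
  have hn3 : (3 : ℝ) ≤ n := by exact_mod_cast hn
  have hx : 1.09 < Real.log n := lt_of_lt_of_le log_three_gt (Real.log_le_log (by norm_num) hn3)
  set x := Real.log n with hxdef
  have hx0 : 0 < x := by linarith
  set L := Real.log (1 / q) with hLdef
  have hLq : Real.log q = -L := by rw [hLdef, one_div, Real.log_inv, neg_neg]
  have hL2 : L ≤ 2 * x := by
    have h1 : 0 ≤ Real.log ((n : ℝ) ^ 2 * q) := Real.log_nonneg hqn
    rw [Real.log_mul (by positivity) hq.ne', Real.log_pow, hLq] at h1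
    push_cast at h1
    linarith
  set y := Real.log x with hydef
  have hy0 : 0 ≤ y := Real.log_nonneg (by linarith)
  have hie := inv_exp_le
  have hie0 : 0 < 1 / Real.exp 1 := by positivity
  have hy : y ≤ 0.3679 * x := by
    have h1 := log_le_div_exp hx0
    have h2 : x / Real.exp 1 = 1 / Real.exp 1 * x := by ring
    rw [h2] at h1
    exact h1.trans (mul_le_mul_of_nonneg_right hie hx0.le)
  have hy2 : y ^ 2 ≤ 4 * 0.3679 ^ 2 * x := by
    have hs : 0 < √x := Real.sqrt_pos.mpr hx0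
    have h1 := log_le_div_exp hs
    rw [Real.log_sqrt hx0.le] at h1
    have h2 : √x / Real.exp 1 = 1 / Real.exp 1 * √x := by ring
    rw [h2] at h1
    have h3 : y / 2 ≤ 0.3679 * √x := h1.trans (mul_le_mul_of_nonneg_right hie hs.le)
    have h4 : y ≤ 2 * 0.3679 * √x := by linarith
    have h5 := Real.sq_sqrt hx0.le
    calc y ^ 2 ≤ (2 * 0.3679 * √x) ^ 2 := pow_le_pow_left₀ hy0 h4 2
      _ = 4 * 0.3679 ^ 2 * √x ^ 2 := by ring
      _ = 4 * 0.3679 ^ 2 * x := by rw [h5]
  -- degrees
  have hdeg : ∀ i ∈ s, x - 2 * y ≤ d i * L := by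
    intro i hi
    have hdi : (1 : ℝ) ≤ d i := by exact_mod_cast hd i hi
    rcases le_or_gt x (d i * L) with h | h
    · linarith
    · have h1 : (d i : ℝ) ≤ x := by nlinarith
      have h2 : Real.log (d i) ≤ y := Real.log_le_log (by linarith) h1
      have h3 := Real.log_lt_log (by positivity) (hw i hi)
      rw [Real.log_mul (by positivity) (by positivity), Real.log_pow, hLq,
        Real.log_mul (by linarith) hx0.ne'] at h3
      rw [← hxdef, ← hydef] at h3
      linarith
  have hsum : (s.card : ℝ) * (x - 2 * y) ≤ 2 * k * L := by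
    have h1 : ∑ _i ∈ s, (x - 2 * y) ≤ ∑ i ∈ s, (d i : ℝ) * L := Finset.sum_le_sum hdeg
    rw [Finset.sum_const, nsmul_eq_mul, ← Finset.sum_mul, ← Nat.cast_sum, hk] at h1
    push_cast at h1
    exact h1
  have hmain := scalar (v := s.card) (k := k) (c := Real.log 132) hx0 hy0
    (Real.log_nonneg (by norm_num)) log_132_le hy hy2 (by linarith) hL2 (Nat.cast_nonneg k) hsum
  -- exponentiate
  have hb1 : 132 * x = Real.exp (Real.log 132 + y) := by
    rw [Real.exp_add, Real.exp_log (by norm_num), hydef, Real.exp_log hx0]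
  have hb2 : (132 * Real.exp 19) ^ 4 * x ^ (2 * L / x) =
      Real.exp (4 * (Real.log 132 + 19) + 2 * L / x * y) := by
    rw [Real.exp_add, Real.rpow_def_of_pos hx0, ← hydef, mul_comm y]
    congr 1
    have : 4 * (Real.log 132 + 19) = ((4 : ℕ) : ℝ) * (Real.log 132 + 19) := by norm_num
    rw [this, Real.exp_nat_mul, Real.exp_add, Real.exp_log (by norm_num)]
  rw [hb1, hb2, ← Real.exp_nat_mul, ← Real.exp_nat_mul]
  exact Real.exp_le_exp.mpr hmain

end VP064
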