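import Vale.Agent.P064.Or.Step
import Vale.Agent.P064.Or.Num2

/-!
# Counting all embeddings
-/

namespace VP064

open Finset

variable {n : ℕ} {X : Type} [Fintype X]

set_option linter.unusedSectionVars false

open Classical in
/-- Embeddings of the arcs of `A` inside `B` into `E`. -/
noncomputable def Emb (E : Finset (Sym2 (Fin n))) (A : Finset (X × X)) (v0 : Fin n)
    (B : Finset X) : Finset (X → Fin n) :=
  univ.filter fun φ => (∀ x, x ∉ B → φ x = v0) ∧
    (∀ a ∈ B, ∀ b ∈ B, φ a = φ b → a = b) ∧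
    ∀ p ∈ A, p.1 ∈ B → p.2 ∈ B → s(φ p.1, φ p.2) ∈ E

open Classical in
lemma mem_Emb {E : Finset (Sym2 (Fin n))} {A : Finset (X × X)} {v0 : Fin n} {B : Finset X}
    {φ : X → Fin n} : φ ∈ Emb E A v0 B ↔ (∀ x, x ∉ B → φ x = v0) ∧
    (∀ a ∈ B, ∀ b ∈ B, φ a = φ b → a = b) ∧
    ∀ p ∈ A, p.1 ∈ B → p.2 ∈ B → s(φ p.1, φ p.2) ∈ E := by
  unfold Emb
  rw [Finset.mem_filter]
  simp

lemma res_mem' {E : Finset (Sym2 (Fin n))} {A : Finset (X × X)} {v0 : Fin n}
    {B B' : Finset X} (hB : B' ⊆ B) {φ : X → Fin n} (h : φ ∈ Emb E A v0 B) :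
    res v0 B' φ ∈ Emb E A v0 B' := by
  rw [mem_Emb] at h ⊢
  obtain ⟨_, h2, h3⟩ := h
  refine ⟨fun x hx => res_of_not_mem hx, ?_, ?_⟩
  · intro a ha b hb hab
    rw [res_of_mem ha, res_of_mem hb] at hab
    exact h2 a (hB ha) b (hB hb) hab
  · intro p hp h1 h2
    rw [res_of_mem h1, res_of_mem h2]
    exact h3 p hp (hB h1) (hB h2)

/-- the pattern given by two sets of arcs -/
def pat (P : Finset (X × X) × Finset (X × X)) (a b : X) : Prop :=
  (a, b) ∈ P.1 ∨ (b, a) ∈ P.2

open Classical in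
lemma emb_cover (E : Finset (Sym2 (Fin n))) (out : Fin n → Fin n → Prop) (A : Finset (X × X))
    (v0 : Fin n) (B : Finset X) :
    Emb E A v0 B ⊆ ((arcs A B).powerset ×ˢ (arcs A B).powerset).biUnion
      fun P => EmbD E out A (pat P) v0 B := by
  intro φ hφ
  rw [mem_Emb] at hφ
  obtain ⟨h1, h2, h3⟩ := hφ
  rw [Finset.mem_biUnion]
  refine ⟨((arcs A B).filter fun p => out (φ p.1) (φ p.2),
    (arcs A B).filter fun p => out (φ p.2) (φ p.1)), ?_, ?_⟩
  · rw [Finset.mem_product, Finset.mem_powerset, Finset.mem_powerset]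
    exact ⟨Finset.filter_subset _ _, Finset.filter_subset _ _⟩
  · rw [mem_EmbD]
    refine ⟨h1, h2, ?_⟩
    intro p hp hp1 hp2
    have hpa : p ∈ arcs A B := by
      unfold arcs
      rw [Finset.mem_filter]
      exact ⟨hp, hp1, hp2⟩
    refine ⟨h3 p hp hp1 hp2, ?_, ?_⟩
    · unfold pat
      simp only [Finset.mem_filter]
      constructor
      · rintro (h | h)
        · exact h.2
        · exact h.2
      · intro h
        exact Or.inl ⟨hpa, h⟩
    · unfold pat
      simp only [Finset.mem_filter]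
      constructor
      · rintro (h | h)
        · exact h.2
        · exact h.2
      · intro h
        exact Or.inr ⟨hpa, h⟩

open Classical in
theorem emb_bound {q : ℝ} (hn : 3 ≤ n) (hq : 0 < q) (hq1 : 1 ≤ Real.log (1 / q))
    {E : Finset (Sym2 (Fin n))} (hE : Inc q E) {N M : ℕ}
    (hN : N = ⌈Real.log (1 / q)⌉₊)
    (hM : M = ⌈Real.log n / Real.log (1 / q) * N⌉₊)
    {out : Fin n → Fin n → Prop}
    (hout : ∀ x, (univ.filter fun y => out x y).card ≤ M)
    (hdens : ∀ (C : Finset (Fin n)) (E' : Finset (Sym2 (Fin n))), E' ⊆ E →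
        (∀ e ∈ E', ∃ x ∈ C, ∃ y, e = s(x, y) ∧ (y ∈ C ∨ ¬ out y x)) →
        N * E'.card ≤ M * C.card)
    {A : Finset (X × X)} (hA : Simp A) (v0 : Fin n) (B : Finset X) :
    ((Emb E A v0 B).card : ℝ) ≤
      (132 * Real.log n * n) ^ B.card * (8 * q) ^ (arcs A B).card := by
  have h1 : (Emb E A v0 B).card ≤
      ∑ P ∈ (arcs A B).powerset ×ˢ (arcs A B).powerset, (EmbD E out A (pat P) v0 B).card :=
    (Finset.card_le_card (emb_cover E out A v0 B)).trans Finset.card_biUnion_le
  have h2 : ((Emb E A v0 B).card : ℝ) ≤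
      ∑ P ∈ (arcs A B).powerset ×ˢ (arcs A B).powerset,
        ((132 * Real.log n * n) ^ B.card * (2 * q) ^ (arcs A B).card) := by
    have h1' : ((Emb E A v0 B).card : ℝ) ≤
        ((∑ P ∈ (arcs A B).powerset ×ˢ (arcs A B).powerset,
          (EmbD E out A (pat P) v0 B).card : ℕ) : ℝ) := by exact_mod_cast h1
    refine h1'.trans ?_
    push_cast
    apply Finset.sum_le_sum
    intro P _
    exact embD_bound hn hq hq1 hE hN hM hout hdens hA (pat P) v0 _ B rfl
  refine h2.trans (le_of_eq ?_)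
  rw [Finset.sum_const, Finset.card_product, Finset.card_powerset, nsmul_eq_mul]
  push_cast
  have h3 : (8 * q) = 2 * (2 * (2 * q)) := by ring
  rw [h3, mul_pow 2 (2 * (2 * q)), mul_pow 2 (2 * q)]
  ring

open Classical in
/-- degrees -/
noncomputable def dg (A : Finset (X × X)) (B : Finset X) (x : X) : ℕ :=
  ((arcs A B).filter fun p => p.1 = x ∨ p.2 = x).card

open Classical in
lemma sum_dg {A : Finset (X × X)} (hA : ∀ p ∈ A, p.1 ≠ p.2) (B : Finset X) :
    ∑ x ∈ B, dg A B x = 2 * (arcs A B).card := by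
  have h1 : ∀ x ∈ B, dg A B x = ∑ p ∈ arcs A B, ((if p.1 = x then 1 else 0) +
      (if p.2 = x then 1 else 0)) := by
    intro x _
    unfold dg
    rw [Finset.card_filter]
    apply Finset.sum_congr rfl
    intro p hp
    have hne : p.1 ≠ p.2 := by
      unfold arcs at hp
      exact hA p (Finset.mem_filter.mp hp).1
    by_cases h2 : p.1 = x
    · by_cases h3 : p.2 = x
      · exact absurd (h2.trans h3.symm) hne
      · simp [h2, h3]
    · by_cases h3 : p.2 = x
      · simp [h2, h3]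
      · simp [h2, h3]
  rw [Finset.sum_congr rfl h1, Finset.sum_comm]
  have h2 : ∀ p ∈ arcs A B, ∑ x ∈ B, ((if p.1 = x then 1 else 0) +
      (if p.2 = x then 1 else 0)) = 2 := by
    intro p hp
    unfold arcs at hp
    obtain ⟨_, h3, h4⟩ := Finset.mem_filter.mp hp
    rw [Finset.sum_add_distrib, Finset.sum_ite_eq, Finset.sum_ite_eq, if_pos h3, if_pos h4]
  rw [Finset.sum_congr rfl h2, Finset.sum_const, smul_eq_mul, mul_comm]

open Classical in
lemma arcs_erase (A : Finset (X × X)) (B : Finset X) (x : X) :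
    (arcs A B).card = (arcs A (B \ {x})).card + dg A B x := by
  rw [arcs_split A B {x}]
  unfold dg
  simp only [Finset.mem_singleton]

open Classical in
lemma emb_fibre (E : Finset (Sym2 (Fin n))) (A : Finset (X × X)) (v0 : Fin n) (B C : Finset X)
    {R : ℝ} (h : ∀ χ ∈ Emb E A v0 (B \ C),
      (((Emb E A v0 B).filter fun φ => res v0 (B \ C) φ = χ).card : ℝ) ≤ R) :
    ((Emb E A v0 B).card : ℝ) ≤ (Emb E A v0 (B \ C)).card * R := by
  have h2 : (Emb E A v0 B).card =
      ∑ χ ∈ Emb E A v0 (B \ C),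
        ((Emb E A v0 B).filter fun φ => res v0 (B \ C) φ = χ).card := by
    apply Finset.card_eq_sum_card_fiberwise
    intro φ hφ
    exact res_mem' Finset.sdiff_subset hφ
  rw [h2]
  push_cast
  calc (∑ χ ∈ Emb E A v0 (B \ C),
      (((Emb E A v0 B).filter fun φ => res v0 (B \ C) φ = χ).card : ℝ))
      ≤ ∑ _χ ∈ Emb E A v0 (B \ C), R := Finset.sum_le_sum h
    _ = _ := by rw [Finset.sum_const, nsmul_eq_mul]

open Classical in
/-- in a fibre over a single removed vertex, the map is determined by the image of the vertex -/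
lemma fibre_det {E : Finset (Sym2 (Fin n))} {A : Finset (X × X)} {v0 : Fin n} {B : Finset X}
    {x : X} {χ φ : X → Fin n} (hφ : φ ∈ Emb E A v0 B) (hχ : res v0 (B \ {x}) φ = χ) :
    ∀ y, y ≠ x → φ y = χ y := by
  intro y hy
  rw [← hχ]
  by_cases hyB : y ∈ B
  · rw [res_of_mem (Finset.mem_sdiff.mpr ⟨hyB, by rwa [Finset.mem_singleton]⟩)]
  · rw [res_of_not_mem (fun h => hyB (Finset.mem_sdiff.mp h).1)]
    exact (mem_Emb.mp hφ).1 y hyB

open Classical in
lemma fibre_card_le (E : Finset (Sym2 (Fin n))) (A : Finset (X × X)) (v0 : Fin n)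
    (B : Finset X) (x : X) (χ : X → Fin n) :
    ((Emb E A v0 B).filter fun φ => res v0 (B \ {x}) φ = χ).card ≤ n := by
  have h1 : ((Emb E A v0 B).filter fun φ => res v0 (B \ {x}) φ = χ).card ≤
      (univ : Finset (Fin n)).card := by
    apply Finset.card_le_card_of_injOn (fun φ => φ x)
    · intro φ _
      exact Finset.mem_coe.mpr (Finset.mem_univ _)
    · intro φ hφ ψ hψ h
      rw [Finset.mem_coe, Finset.mem_filter] at hφ hψ
      ext y
      by_cases hy : y = x
      · rw [hy]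
        exact congrArg Fin.val h
      · rw [fibre_det hφ.1 hφ.2 y hy, fibre_det hψ.1 hψ.2 y hy]
  rwa [Finset.card_univ, Fintype.card_fin] at h1

open Classical in
lemma fibre_codeg {q : ℝ} (hn : 3 ≤ n) (hq : 0 < q)
    {E : Finset (Sym2 (Fin n))} (hE : Inc q E)
    {A : Finset (X × X)} (hA : Simp A) (v0 : Fin n)
    (B : Finset X) {x : X} (hx : x ∈ B) (χ : X → Fin n)
    (hw : (dg A B x : ℝ) * Real.log n ≤ (n : ℝ) * q ^ dg A B x) :
    (((Emb E A v0 B).filter fun φ => res v0 (B \ {x}) φ = χ).card : ℝ) ≤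
      (Real.exp 2 + 1) * ((n : ℝ) * q ^ dg A B x) := by
  set F := (Emb E A v0 B).filter fun φ => res v0 (B \ {x}) φ = χ with hF
  set T := (arcs A B).filter fun p => p.1 = x ∨ p.2 = x with hT
  set Y := (B \ {x}).filter fun y => ∃ p ∈ T, p.1 = y ∨ p.2 = y with hY
  have hdg : dg A B x = T.card := rfl
  have memT : ∀ p ∈ T, p ∈ A ∧ p.1 ∈ B ∧ p.2 ∈ B ∧ (p.1 = x ∨ p.2 = x) := by
    intro p hp
    rw [hT, Finset.mem_filter] at hp
    unfold arcs at hp
    rw [Finset.mem_filter] at hp
    exact ⟨hp.1.1, hp.1.2.1, hp.1.2.2, hp.2⟩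
  have hTY : ∀ p ∈ T, p.1 ∈ {x} ∪ Y ∧ p.2 ∈ {x} ∪ Y := by
    intro p hp
    obtain ⟨_, h1, h2, _⟩ := memT p hp
    constructor
    · by_cases h : p.1 ∈ ({x} : Finset X)
      · exact Finset.mem_union_left _ h
      · apply Finset.mem_union_right
        rw [hY, Finset.mem_filter]
        exact ⟨Finset.mem_sdiff.mpr ⟨h1, h⟩, p, hp, Or.inl rfl⟩
    · by_cases h : p.2 ∈ ({x} : Finset X)
      · exact Finset.mem_union_left _ h
      · apply Finset.mem_union_right
        rw [hY, Finset.mem_filter]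
        exact ⟨Finset.mem_sdiff.mpr ⟨h2, h⟩, p, hp, Or.inr rfl⟩
  have hCY : {x} ∪ Y ⊆ B := by
    apply Finset.union_subset (Finset.singleton_subset_iff.mpr hx)
    intro y hy
    rw [hY, Finset.mem_filter] at hy
    exact (Finset.mem_sdiff.mp hy.1).1
  have hYT : Y.card ≤ T.card := by
    have h1 : Y ⊆ T.image fun p => if p.1 = x then p.2 else p.1 := by
      intro y hy
      rw [hY, Finset.mem_filter] at hy
      obtain ⟨hy1, p, hp, hpy⟩ := hy
      have hyC : y ≠ x := by
        have := (Finset.mem_sdiff.mp hy1).2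
        rwa [Finset.mem_singleton] at this
      obtain ⟨_, _, _, h4⟩ := memT p hp
      rw [Finset.mem_image]
      refine ⟨p, hp, ?_⟩
      rcases hpy with h5 | h5
      · have h6 : p.1 ≠ x := by rw [h5]; exact hyC
        rw [if_neg h6]
        exact h5
      · have h6 : p.2 ≠ x := by rw [h5]; exact hyC
        have h7 : p.1 = x := by tauto
        rw [if_pos h7]
        exact h5
    exact (Finset.card_le_card h1).trans Finset.card_image_le
  have memF : ∀ φ ∈ F, φ ∈ Emb E A v0 B ∧ res v0 (B \ {x}) φ = χ := by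
    intro φ hφ
    rw [hF, Finset.mem_filter] at hφ
    exact hφ
  obtain ⟨m, hm1, hm2⟩ := ext_count hq hE T {x} Y hTY
    (fun p hp => by
      rw [Finset.mem_singleton, Finset.mem_singleton]
      exact (memT p hp).2.2.2)
    (fun p hp p' hp' h => hA p (memT p hp).1 p' (memT p' hp').1 h) χ F
    (fun φ hφ y hy => fibre_det (memF φ hφ).1 (memF φ hφ).2 y (by
      rwa [Finset.mem_singleton] at hy))
    (fun φ hφ a ha b hb hab => (mem_Emb.mp (memF φ hφ).1).2.1 a (hCY ha) b (hCY hb) hab)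
    (fun φ hφ e he => by
      unfold im at he
      rw [Finset.mem_image] at he
      obtain ⟨p, hp, rfl⟩ := he
      obtain ⟨h1, h2, h3, _⟩ := memT p hp
      exact (mem_Emb.mp (memF φ hφ).1).2.2 p h1 h2 h3) 1
    (fun c hc u => by
      rw [Finset.mem_singleton] at hc
      subst hc
      rw [Finset.card_le_one]
      intro φ hφ ψ hψ
      rw [Finset.mem_filter] at hφ hψ
      ext y
      by_cases hy : y = c
      · rw [hy, hφ.2, hψ.2]
      · rw [fibre_det (memF φ hφ.1).1 (memF φ hφ.1).2 y hy,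
          fibre_det (memF ψ hψ.1).1 (memF ψ hψ.1).2 y hy])
    (Finset.singleton_nonempty x)
  rw [Finset.card_singleton] at hm1 hm2
  have hn1 : (1 : ℝ) ≤ n := by
    exact_mod_cast (by omega : 1 ≤ n)
  have hm3 : ((m.factorial : ℕ) : ℝ) ≤
      (n : ℝ) ^ T.card * ((n : ℝ) ^ 1 * q ^ T.card) ^ m := by
    refine hm2.trans ?_
    apply mul_le_mul_of_nonneg_right _ (by positivity)
    exact pow_le_pow_right₀ hn1 hYT
  have hm4 := fact_bound (by omega) (by positivity) hm3
  rw [pow_one] at hm4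
  have hm5 : (F.card : ℝ) ≤ m := by
    have : F.card ≤ m := by simpa using hm1
    exact_mod_cast this
  rw [hdg] at hw ⊢
  calc (F.card : ℝ) ≤ m := hm5
    _ ≤ _ := hm4
    _ ≤ Real.exp 2 * ((n : ℝ) * q ^ T.card) + (n : ℝ) * q ^ T.card := by linarith
    _ = _ := by ring

open Classical in
theorem emb_final {q K : ℝ} (hn : 3 ≤ n) (hq : 0 < q) (hq1 : 1 ≤ Real.log (1 / q))
    (hqn : 1 ≤ (n : ℝ) ^ 2 * q)
    {E : Finset (Sym2 (Fin n))} (hE : Inc q E) {N M : ℕ}
    (hN : N = ⌈Real.log (1 / q)⌉₊)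
    (hM : M = ⌈Real.log n / Real.log (1 / q) * N⌉₊)
    {out : Fin n → Fin n → Prop}
    (hout : ∀ x, (univ.filter fun y => out x y).card ≤ M)
    (hdens : ∀ (C : Finset (Fin n)) (E' : Finset (Sym2 (Fin n))), E' ⊆ E →
        (∀ e ∈ E', ∃ x ∈ C, ∃ y, e = s(x, y) ∧ (y ∈ C ∨ ¬ out y x)) →
        N * E'.card ≤ M * C.card)
    {A : Finset (X × X)} (hA : Simp A) (hA2 : ∀ p ∈ A, p.1 ≠ p.2) (v0 : Fin n)
    (hK1 : Real.exp 2 + 1 ≤ K)
    (hK : 8 * ((132 * Real.exp 19) ^ 4 *
      (Real.log n) ^ (2 * Real.log (1 / q) / Real.log n)) ≤ K) :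
    ∀ (k : ℕ) (B : Finset X), B.card = k →
    ((Emb E A v0 B).card : ℝ) ≤ (n : ℝ) ^ B.card * (K * q) ^ (arcs A B).card := by
  have hlog : 0 ≤ Real.log n := Real.log_natCast_nonneg n
  have hexp : 0 < Real.exp 2 := Real.exp_pos 2
  have hK0 : 0 < K := by linarith
  intro k
  induction k using Nat.strong_induction_on with
  | _ k ih =>
  intro B hBk
  by_cases hcase : ∃ x ∈ B, dg A B x = 0 ∨
      (dg A B x : ℝ) * Real.log n ≤ (n : ℝ) * q ^ dg A B x
  · obtain ⟨x, hx, hd⟩ := hcase
    have hcard : (B \ {x}).card + 1 = B.card := by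
      rw [Finset.card_sdiff_of_subset (Finset.singleton_subset_iff.mpr hx),
        Finset.card_singleton]
      have : 0 < B.card := Finset.card_pos.mpr ⟨x, hx⟩
      omega
    have h1 := ih _ (by omega : (B \ {x}).card < k) (B \ {x}) rfl
    rcases hd with hd | hd
    · have h2 := emb_fibre E A v0 B {x} (R := n)
        (fun χ _ => by exact_mod_cast fibre_card_le E A v0 B x χ)
      have h3 := arcs_erase A B x
      rw [hd, add_zero] at h3
      rw [h3, ← hcard, pow_succ]
      calc ((Emb E A v0 B).card : ℝ) ≤ _ := h2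
        _ ≤ ((n : ℝ) ^ (B \ {x}).card * (K * q) ^ (arcs A (B \ {x})).card) * n :=
          mul_le_mul_of_nonneg_right h1 (by positivity)
        _ = _ := by ring
    · by_cases hd0 : dg A B x = 0
      · have h2 := emb_fibre E A v0 B {x} (R := n)
          (fun χ _ => by exact_mod_cast fibre_card_le E A v0 B x χ)
        have h3 := arcs_erase A B x
        rw [hd0, add_zero] at h3
        rw [h3, ← hcard, pow_succ]
        calc ((Emb E A v0 B).card : ℝ) ≤ _ := h2
          _ ≤ ((n : ℝ) ^ (B \ {x}).card * (K * q) ^ (arcs A (B \ {x})).card) * n :=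
            mul_le_mul_of_nonneg_right h1 (by positivity)
          _ = _ := by ring
      · have h2 := emb_fibre E A v0 B {x} (R := (Real.exp 2 + 1) * ((n : ℝ) * q ^ dg A B x))
          (fun χ _ => fibre_codeg hn hq hE hA v0 B hx χ hd)
        have h3 := arcs_erase A B x
        rw [h3, ← hcard, pow_succ, pow_add]
        have h4 : Real.exp 2 + 1 ≤ K ^ dg A B x := by
          calc Real.exp 2 + 1 ≤ K := hK1
            _ = K ^ 1 := (pow_one K).symm
            _ ≤ K ^ dg A B x := pow_le_pow_right₀ (by linarith) (by omega)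
        calc ((Emb E A v0 B).card : ℝ) ≤ _ := h2
          _ ≤ ((n : ℝ) ^ (B \ {x}).card * (K * q) ^ (arcs A (B \ {x})).card) *
              ((Real.exp 2 + 1) * ((n : ℝ) * q ^ dg A B x)) :=
            mul_le_mul_of_nonneg_right h1 (by positivity)
          _ ≤ ((n : ℝ) ^ (B \ {x}).card * (K * q) ^ (arcs A (B \ {x})).card) *
              (K ^ dg A B x * ((n : ℝ) * q ^ dg A B x)) := by
            apply mul_le_mul_of_nonneg_left _ (by positivity)
            exact mul_le_mul_of_nonneg_right h4 (by positivity)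
          _ = _ := by
            rw [mul_pow K q (dg A B x)]
            ring
  · push Not at hcase
    have h1 := emb_bound hn hq hq1 hE hN hM hout hdens hA v0 B
    have h2 := core_num B (dg A B) (arcs A B).card hn hq hq1 hqn (sum_dg hA2 B)
      (fun i hi => Nat.one_le_iff_ne_zero.mpr (hcase i hi).1) (fun i hi => (hcase i hi).2)
    calc ((Emb E A v0 B).card : ℝ) ≤ _ := h1
      _ = (n : ℝ) ^ B.card * (8 * q) ^ (arcs A B).card * (132 * Real.log n) ^ B.card := by
        rw [mul_pow (132 * Real.log n) (n : ℝ)]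
        ring
      _ ≤ (n : ℝ) ^ B.card * (8 * q) ^ (arcs A B).card *
          ((132 * Real.exp 19) ^ 4 *
            (Real.log n) ^ (2 * Real.log (1 / q) / Real.log n)) ^ (arcs A B).card :=
        mul_le_mul_of_nonneg_left h2 (by positivity)
      _ = (n : ℝ) ^ B.card * (8 * ((132 * Real.exp 19) ^ 4 *
            (Real.log n) ^ (2 * Real.log (1 / q) / Real.log n)) * q) ^ (arcs A B).card := by
        rw [mul_assoc, ← mul_pow]
        congr 2
        ring
      _ ≤ (n : ℝ) ^ B.card * (K * q) ^ (arcs A B).card := by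
        apply mul_le_mul_of_nonneg_left _ (by positivity)
        apply pow_le_pow_left₀ _ _ _
        · positivity
        · exact mul_le_mul_of_nonneg_right hK hq.le

end VP064
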