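import Mathlib

/-!
# Numerical lemmas
-/

namespace VP064

/-- `m! ≤ n^e B^m` forces `m ≤ e^2 B + e log n`. -/
theorem fact_bound {n m e : ℕ} (hn : 1 ≤ n) {B : ℝ} (hB : 0 ≤ B)
    (h : ((m.factorial : ℕ) : ℝ) ≤ (n : ℝ) ^ e * B ^ m) :
    (m : ℝ) ≤ Real.exp 2 * B + e * Real.log n := by
  have hn1 : (1 : ℝ) ≤ n := by exact_mod_cast hn
  have hlog : 0 ≤ Real.log n := Real.log_nonneg hn1
  have hexp : 0 < Real.exp 2 := Real.exp_pos 2
  rcases Nat.eq_zero_or_pos m with rfl | hm
  · push_cast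
    positivity
  rcases hB.eq_or_lt with rfl | hB
  · rw [zero_pow hm.ne', mul_zero] at h
    have : (0 : ℝ) < (m.factorial : ℕ) := by exact_mod_cast m.factorial_pos
    linarith
  by_contra hcon
  push Not at hcon
  have hm0 : (0 : ℝ) < m := by exact_mod_cast hm
  have h1 : (m : ℝ) ^ m / (m.factorial : ℕ) ≤ Real.exp m := Real.pow_div_factorial_le_exp _ hm0.le m
  have hf : (0 : ℝ) < (m.factorial : ℕ) := by exact_mod_cast m.factorial_pos
  rw [div_le_iff₀ hf] at h1
  have h2 : (m : ℝ) ^ m ≤ Real.exp m * ((n : ℝ) ^ e * B ^ m) :=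
    h1.trans (mul_le_mul_of_nonneg_left h (Real.exp_pos _).le)
  have h3 := Real.log_le_log (by positivity) h2
  have hn0 : (0 : ℝ) < n := by linarith
  rw [Real.log_mul (Real.exp_pos _).ne' (by positivity), Real.log_exp, Real.log_pow,
    Real.log_mul (by positivity) (by positivity), Real.log_pow, Real.log_pow] at h3
  have h4 : Real.exp 2 * B < m := by
    have : 0 ≤ (e : ℝ) * Real.log n := by positivity
    linarith
  have h5 := Real.log_lt_log (by positivity) h4
  rw [Real.log_mul hexp.ne' hB.ne', Real.log_exp] at h5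
  have h6 : (m : ℝ) * (Real.log m - Real.log B - 1) ≤ e * Real.log n := by linarith
  have h7 : (m : ℝ) * 1 ≤ m * (Real.log m - Real.log B - 1) :=
    mul_le_mul_of_nonneg_left (by linarith) hm0.le
  have h8 : 0 < Real.exp 2 * B := by positivity
  linarith

theorem pow_mul_fact_aux (d v : ℕ) :
    ((v + d : ℕ) : ℝ) ^ v * (d.factorial : ℕ) ≤ Real.exp v * ((v + d).factorial : ℕ) := by
  induction v with
  | zero => simp
  | succ v ih =>
    rcases Nat.eq_zero_or_pos (v + d) with h0 | hpos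
    · have hv : v = 0 := by omega
      have hd : d = 0 := by omega
      subst hv hd
      simp only [Nat.factorial, Nat.cast_one]
      have := Real.add_one_le_exp (1 : ℝ)
      norm_num
    · have hpos' : (0 : ℝ) < ((v + d : ℕ) : ℝ) := by exact_mod_cast hpos
      set t : ℝ := ((v + d : ℕ) : ℝ) with ht
      have h1 : (t + 1) ^ v ≤ Real.exp 1 * t ^ v := by
        have h2 : t + 1 ≤ Real.exp (1 / t) * t := by
          have h3 := Real.add_one_le_exp (1 / t)
          have h4 := mul_le_mul_of_nonneg_right h3 hpos'.le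
          have h5 : (1 / t + 1) * t = t + 1 := by field_simp; ring
          linarith
        have h3 : (t + 1) ^ v ≤ (Real.exp (1 / t) * t) ^ v :=
          pow_le_pow_left₀ (by positivity) h2 v
        refine h3.trans ?_
        rw [mul_pow]
        refine mul_le_mul_of_nonneg_right ?_ (by positivity)
        rw [← Real.exp_nat_mul]
        apply Real.exp_le_exp.2
        rw [mul_one_div, div_le_one hpos', ht]
        push_cast
        have : (0 : ℝ) ≤ d := Nat.cast_nonneg d
        linarith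
      have e1 : (((v + 1 + d : ℕ) : ℕ) : ℝ) = t + 1 := by
        rw [ht]; push_cast; ring
      have e2 : ((v + 1 + d).factorial : ℝ) = (t + 1) * ((v + d).factorial : ℕ) := by
        have : v + 1 + d = (v + d) + 1 := by ring
        rw [this, Nat.factorial_succ, ht]
        push_cast
        ring
      rw [e1, e2, pow_succ]
      have h6 : Real.exp ((v + 1 : ℕ) : ℝ) = Real.exp v * Real.exp 1 := by
        rw [← Real.exp_add]; push_cast; rfl
      rw [h6]
      calc (t + 1) ^ v * (t + 1) * (d.factorial : ℕ)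
          = ((t + 1) ^ v * (d.factorial : ℕ)) * (t + 1) := by ring
        _ ≤ ((Real.exp 1 * t ^ v) * (d.factorial : ℕ)) * (t + 1) := by gcongr
        _ = Real.exp 1 * (t ^ v * (d.factorial : ℕ)) * (t + 1) := by ring
        _ ≤ Real.exp 1 * (Real.exp v * ((v + d).factorial : ℕ)) * (t + 1) := by gcongr
        _ = _ := by ring

/-- `n^v (n-v)! ≤ e^v n!`. -/
theorem pow_mul_fact_le {n v : ℕ} (hv : v ≤ n) :
    (n : ℝ) ^ v * ((n - v).factorial : ℕ) ≤ Real.exp v * (n.factorial : ℕ) := by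
  have h := pow_mul_fact_aux (n - v) v
  have e : v + (n - v) = n := by omega
  rw [e] at h
  exact h

theorem num_exp_le (k : ℕ) (hk : 1 ≤ k) : Real.exp 2 + Real.exp k ≤ (11 : ℝ) ^ k := by
  have h1 : Real.exp 1 < 2.7182818286 := Real.exp_one_lt_d9
  have h0 : 0 < Real.exp 1 := Real.exp_pos 1
  have h2 : Real.exp 2 = Real.exp 1 * Real.exp 1 := by
    rw [← Real.exp_add]; norm_num
  have h3 : Real.exp 2 < 7.4 := by
    rw [h2]; nlinarith
  induction k, hk using Nat.le_induction with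
  | base =>
    rw [pow_one, Nat.cast_one]
    linarith
  | succ k hk ih =>
    rw [pow_succ, Nat.cast_succ, Real.exp_add]
    have h4 : 0 < Real.exp (k : ℝ) := Real.exp_pos _
    have h5 : Real.exp (k : ℝ) * Real.exp 1 ≤ Real.exp k * 11 := by
      apply mul_le_mul_of_nonneg_left _ h4.le
      linarith
    have h6 : Real.exp 2 ≤ Real.exp 2 * 11 := by
      have := Real.exp_pos (2 : ℝ)
      linarith
    calc Real.exp 2 + Real.exp k * Real.exp 1 ≤ Real.exp 2 * 11 + Real.exp k * 11 := by linarith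
      _ = (Real.exp 2 + Real.exp k) * 11 := by ring
      _ ≤ _ := mul_le_mul_of_nonneg_right ih (by norm_num)

/-- The number of extensions in one step. -/
theorem step_num {n k e N M m R : ℕ} {q : ℝ} (hn : 3 ≤ n) (hk : 1 ≤ k) (hq : 0 < q)
    (hq1 : 1 ≤ Real.log (1 / q)) (hN : N = ⌈Real.log (1 / q)⌉₊)
    (hM : M = ⌈Real.log n / Real.log (1 / q) * N⌉₊) (hd : N * e ≤ M * k)
    (hm : (m : ℝ) ≤ Real.exp 2 * ((n : ℝ) ^ k * q ^ e) + e * Real.log n)
    (hR : R ≤ m * (k ^ 2 * M ^ (k - 1))) :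
    (R : ℝ) ≤ (132 * Real.log n * n) ^ k * (2 * q) ^ e := by
  have hn3 : (3 : ℝ) ≤ n := by exact_mod_cast hn
  have hn0 : (0 : ℝ) < n := by linarith
  obtain ⟨x, hx⟩ : ∃ x, x = Real.log n := ⟨_, rfl⟩
  obtain ⟨L, hL⟩ : ∃ L, L = Real.log (1 / q) := ⟨_, rfl⟩
  rw [← hx] at hM hm ⊢
  rw [← hL] at hq1 hN hM
  have hx1 : 1 ≤ x := by
    rw [hx]
    have h1 : Real.exp 1 ≤ n := by
      have := Real.exp_one_lt_d9
      linarith
    have h2 := Real.log_le_log (Real.exp_pos 1) h1
    rwa [Real.log_exp] at h2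
  have hL0 : 0 < L := by linarith
  have hNL : L ≤ N := by rw [hN]; exact Nat.le_ceil L
  have hNL1 : (N : ℝ) ≤ L + 1 := by rw [hN]; exact (Nat.ceil_lt_add_one hL0.le).le
  have hN1 : (1 : ℝ) ≤ N := hq1.trans hNL
  have hN0 : (0 : ℝ) < N := by linarith
  have hM1 : (M : ℝ) ≤ x / L * N + 1 := by
    rw [hM]; exact (Nat.ceil_lt_add_one (by positivity)).le
  have hxL : x / L ≤ x := div_le_self (by linarith) hq1
  have hM3 : (M : ℝ) ≤ 3 * x := by
    have h1 : x / L * N ≤ x / L * (L + 1) := mul_le_mul_of_nonneg_left hNL1 (by positivity)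
    have h2 : x / L * (L + 1) = x + x / L := by field_simp
    linarith
  have hk1 : (1 : ℝ) ≤ k := by exact_mod_cast hk
  have hd' : (N : ℝ) * e ≤ M * k := by exact_mod_cast hd
  -- `e L ≤ k (x + 1)`
  have heL : (e : ℝ) * L ≤ k * (x + 1) := by
    have h1 : (N : ℝ) * e ≤ (x / L * N + 1) * k :=
      hd'.trans (mul_le_mul_of_nonneg_right hM1 (by linarith))
    have h2 : (N : ℝ) * (e * L) ≤ (x * N + L) * k := by
      have h3 := mul_le_mul_of_nonneg_right h1 hL0.le
      have h4 : (x / L * N + 1) * k * L = (x * N + L) * k := by field_simp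
      nlinarith
    have h5 : (x * N + L) * k ≤ (x * N + N) * k :=
      mul_le_mul_of_nonneg_right (by linarith) (by linarith)
    have h6 : (x * N + N) * k = N * (k * (x + 1)) := by ring
    have h7 : (N : ℝ) * (e * L) ≤ N * (k * (x + 1)) := by linarith
    exact le_of_mul_le_mul_left h7 hN0
  obtain ⟨B, hBdef⟩ : ∃ B, B = (n : ℝ) ^ k * q ^ e := ⟨_, rfl⟩
  rw [← hBdef] at hm
  have hB0 : 0 < B := by rw [hBdef]; positivity
  have hlogB : Real.log B = k * x - e * L := by
    rw [hBdef, Real.log_mul (by positivity) (by positivity), Real.log_pow, Real.log_pow, hx, hL,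
      one_div, Real.log_inv]
    ring
  have hB1 : 1 ≤ Real.exp k * B := by
    have h1 : Real.exp k * B = Real.exp (k + Real.log B) := by
      rw [Real.exp_add, Real.exp_log hB0]
    rw [h1]
    apply Real.one_le_exp
    rw [hlogB]
    nlinarith
  -- bound on `m`
  have h2e : (e : ℝ) ≤ 2 ^ e := by exact_mod_cast (Nat.lt_two_pow_self (n := e)).le
  have h1e : (1 : ℝ) ≤ 2 ^ e := one_le_pow₀ (by norm_num)
  have hm1 : (m : ℝ) ≤ B * (2 ^ e * x * (Real.exp 2 + Real.exp k)) := by
    have h1 : (e : ℝ) * x ≤ B * (Real.exp k * (e * x)) := by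
      have h2 : 0 ≤ (e : ℝ) * x := by positivity
      have h3 := mul_le_mul_of_nonneg_right hB1 h2
      linarith
    have h4 : Real.exp 2 ≤ 2 ^ e * x * Real.exp 2 := by
      have h5 : 1 ≤ 2 ^ e * x := by nlinarith
      have h6 := Real.exp_pos (2 : ℝ)
      nlinarith
    have h5 : Real.exp k * (e * x) ≤ 2 ^ e * x * Real.exp k := by
      have h6 : (e : ℝ) * x ≤ 2 ^ e * x := mul_le_mul_of_nonneg_right h2e (by linarith)
      have h7 := mul_le_mul_of_nonneg_left h6 (Real.exp_pos (k : ℝ)).le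
      linarith
    have h6 : B * Real.exp 2 ≤ B * (2 ^ e * x * Real.exp 2) := mul_le_mul_of_nonneg_left h4 hB0.le
    have h7 := mul_le_mul_of_nonneg_left h5 hB0.le
    have h8 : B * (2 ^ e * x * (Real.exp 2 + Real.exp k)) =
      B * (2 ^ e * x * Real.exp 2) + B * (2 ^ e * x * Real.exp k) := by ring
    linarith
  have hm2 : (m : ℝ) ≤ B * (2 ^ e * x * 11 ^ k) := by
    refine hm1.trans (mul_le_mul_of_nonneg_left ?_ hB0.le)
    exact mul_le_mul_of_nonneg_left (num_exp_le k hk) (by positivity)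
  have hk4 : (k : ℝ) ^ 2 ≤ 4 ^ k := by
    have h1 : (k : ℝ) ≤ 2 ^ k := by exact_mod_cast (Nat.lt_two_pow_self (n := k)).le
    have h2 : (4 : ℝ) ^ k = (2 ^ k) ^ 2 := by rw [← pow_mul, mul_comm, pow_mul]; norm_num
    rw [h2]
    exact pow_le_pow_left₀ (by linarith) h1 2
  have hMk : (M : ℝ) ^ (k - 1) ≤ 3 ^ k * x ^ (k - 1) := by
    calc (M : ℝ) ^ (k - 1) ≤ (3 * x) ^ (k - 1) := pow_le_pow_left₀ (Nat.cast_nonneg _) hM3 _
      _ = 3 ^ (k - 1) * x ^ (k - 1) := mul_pow _ _ _
      _ ≤ 3 ^ k * x ^ (k - 1) := by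
        apply mul_le_mul_of_nonneg_right _ (by positivity)
        exact pow_le_pow_right₀ (by norm_num) (Nat.sub_le _ _)
  have hR' : (R : ℝ) ≤ m * (k ^ 2 * M ^ (k - 1)) := by exact_mod_cast hR
  have hxk : x * x ^ (k - 1) = x ^ k := by
    rw [← pow_succ']
    congr 1
    omega
  calc (R : ℝ) ≤ m * (k ^ 2 * M ^ (k - 1)) := hR'
    _ ≤ (B * (2 ^ e * x * 11 ^ k)) * (4 ^ k * (3 ^ k * x ^ (k - 1))) := by
      apply mul_le_mul hm2 _ (by positivity) (by positivity)
      exact mul_le_mul hk4 hMk (by positivity) (by positivity)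
    _ = B * 2 ^ e * (11 ^ k * 4 ^ k * 3 ^ k) * (x * x ^ (k - 1)) := by ring
    _ = B * 2 ^ e * 132 ^ k * x ^ k := by
      rw [hxk, ← mul_pow, ← mul_pow]
      norm_num
    _ = (132 * x * n) ^ k * (2 * q) ^ e := by
      rw [hBdef, mul_pow, mul_pow, mul_pow]
      ring

end VP064
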