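import Vale.Agent.P064.Or.Base

/-!
# Incompressibility of unions of rooted copies
-/

namespace VP064

open Finset

/-- the code of a permutation -/
noncomputable def orb_F {n : ℕ} {X : Type} (C Y : Finset X) (χ : X → Fin n)
    (Φ : Finset (X → Fin n)) (g : Equiv.Perm (Fin n)) :
    (Y → Fin n) × Finset (C → Fin n) :=
  open Classical in
  (fun y => g (χ y), Φ.image fun φ => fun c : C => g (φ c))

theorem orb_card {n : ℕ} {X : Type} (C Y : Finset X) (χ : X → Fin n)
    (Φ : Finset (X → Fin n)) (hΦ : ∀ φ ∈ Φ, ∀ x, x ∉ C → φ x = χ x)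
    (g : Equiv.Perm (Fin n)) : (orb_F C Y χ Φ g).2.card = Φ.card := by
  classical
  unfold orb_F
  apply Finset.card_image_of_injOn
  intro φ hφ ψ hψ h
  funext x
  by_cases hx : x ∈ C
  · have h1 := congrFun h ⟨x, hx⟩
    exact g.injective h1
  · rw [hΦ φ hφ x hx, hΦ ψ hψ x hx]

open Classical in
theorem orb_sub {n : ℕ} {X : Type} (T : Finset (X × X)) (C Y : Finset X)
    (hT : ∀ p ∈ T, p.1 ∈ C ∪ Y ∧ p.2 ∈ C ∪ Y) (χ : X → Fin n) (Φ : Finset (X → Fin n))
    (hΦ : ∀ φ ∈ Φ, ∀ x, x ∉ C → φ x = χ x) (g g0 : Equiv.Perm (Fin n))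
    (h : orb_F C Y χ Φ g = orb_F C Y χ Φ g0) : act (g0⁻¹ * g) (build T Φ) ⊆ build T Φ := by
  have h1 : ∀ y : Y, g (χ y) = g0 (χ y) := fun y => congrFun (congrArg Prod.fst h) y
  have h2 : (Φ.image fun φ => fun c : C => g (φ c)) = Φ.image fun φ => fun c : C => g0 (φ c) :=
    congrArg Prod.snd h
  intro e he
  unfold act at he
  rw [Finset.mem_map] at he
  obtain ⟨e', he', rfl⟩ := he
  unfold build im at he'
  rw [Finset.mem_biUnion] at he'
  obtain ⟨φ, hφ, he'⟩ := he'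
  rw [Finset.mem_image] at he'
  obtain ⟨p, hp, rfl⟩ := he'
  have h3 : (fun c : C => g (φ c)) ∈ Φ.image fun φ => fun c : C => g0 (φ c) := by
    rw [← h2]
    exact Finset.mem_image_of_mem _ hφ
  rw [Finset.mem_image] at h3
  obtain ⟨φ', hφ', h4⟩ := h3
  have key : ∀ a, a ∈ C ∪ Y → g0⁻¹ (g (φ a)) = φ' a := by
    intro a ha
    rw [Equiv.Perm.inv_eq_iff_eq]
    by_cases hc : a ∈ C
    · exact (congrFun h4 ⟨a, hc⟩).symm
    · have hy : a ∈ Y := by
        rcases Finset.mem_union.mp ha with h5 | h5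
        · exact absurd h5 hc
        · exact h5
      rw [hΦ φ hφ a hc, hΦ φ' hφ' a hc]
      exact h1 ⟨a, hy⟩
  unfold build im
  rw [Finset.mem_biUnion]
  refine ⟨φ', hφ', ?_⟩
  rw [Finset.mem_image]
  refine ⟨p, hp, ?_⟩
  show s(φ' p.1, φ' p.2) = s((g0⁻¹ * g) (φ p.1), (g0⁻¹ * g) (φ p.2))
  rw [Equiv.Perm.mul_apply, Equiv.Perm.mul_apply, key _ (hT p hp).1, key _ (hT p hp).2]

open Classical in
theorem inc_build {n : ℕ} {X : Type} [Fintype X] {q : ℝ} (hq : 0 < q)
    {E : Finset (Sym2 (Fin n))} (hE : Inc q E) (T : Finset (X × X)) (C Y : Finset X)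
    (hT : ∀ p ∈ T, p.1 ∈ C ∪ Y ∧ p.2 ∈ C ∪ Y) (χ : X → Fin n) (Φ : Finset (X → Fin n))
    (hΦ : ∀ φ ∈ Φ, ∀ x, x ∉ C → φ x = χ x) (hsub : build T Φ ⊆ E) :
    ((Φ.card.factorial : ℕ) : ℝ) ≤
      (n : ℝ) ^ Y.card * ((n : ℝ) ^ C.card) ^ Φ.card * q ^ (build T Φ).card := by
  set U := build T Φ with hU
  set m := Φ.card with hm
  set St : Finset (Equiv.Perm (Fin n)) := univ.filter fun g => act g U ⊆ U with hSt
  have h1 : (St.card : ℝ) ≤ q ^ U.card * n.factorial := hE U hsub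
  have h2 : (univ : Finset (Equiv.Perm (Fin n))).card ≤ St.card *
      ((univ : Finset (Y → Fin n)) ×ˢ ((univ : Finset (C → Fin n)).powersetCard m)).card := by
    apply Finset.card_le_mul_card_image_of_maps_to (f := orb_F C Y χ Φ)
    · intro g _
      rw [Finset.mem_product]
      refine ⟨Finset.mem_univ _, ?_⟩
      rw [Finset.mem_powersetCard]
      exact ⟨Finset.subset_univ _, orb_card C Y χ Φ hΦ g⟩
    · intro b _
      rcases (univ.filter fun g => orb_F C Y χ Φ g = b).eq_empty_or_nonempty with h3 | ⟨g0, h3⟩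
      · rw [h3]
        exact Nat.zero_le _
      · rw [Finset.mem_filter] at h3
        refine Finset.card_le_card_of_injOn (fun g => g0⁻¹ * g) ?_ ?_
        · intro g hg
          rw [Finset.mem_coe, Finset.mem_filter] at hg
          rw [hSt, Finset.mem_coe, Finset.mem_filter]
          exact ⟨Finset.mem_univ _, orb_sub T C Y hT χ Φ hΦ g g0 (hg.2.trans h3.2.symm)⟩
        · intro g _ g' _ hgg
          exact mul_left_cancel hgg
  rw [Finset.card_product, Finset.card_powersetCard, Finset.card_univ, Finset.card_univ,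
    Finset.card_univ, Fintype.card_fun, Fintype.card_fun, Fintype.card_perm, Fintype.card_fin,
    Fintype.card_coe, Fintype.card_coe] at h2
  have h3 : ((n.factorial : ℕ) : ℝ) ≤ St.card * ((n : ℝ) ^ Y.card * ((n ^ C.card).choose m : ℕ)) := by
    exact_mod_cast h2
  have hn : (0 : ℝ) < n.factorial := by exact_mod_cast n.factorial_pos
  have h4 : ((m.factorial : ℕ) : ℝ) * ((n ^ C.card).choose m : ℕ) ≤ ((n : ℝ) ^ C.card) ^ m := by
    have h5 : m.factorial * (n ^ C.card).choose m ≤ (n ^ C.card) ^ m := by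
      rw [← Nat.descFactorial_eq_factorial_mul_choose]
      exact Nat.descFactorial_le_pow _ _
    exact_mod_cast h5
  have h5 : (1 : ℝ) ≤ q ^ U.card * ((n : ℝ) ^ Y.card * ((n ^ C.card).choose m : ℕ)) := by
    have h6 : ((n.factorial : ℕ) : ℝ) * 1 ≤ (n.factorial : ℝ) *
        (q ^ U.card * ((n : ℝ) ^ Y.card * ((n ^ C.card).choose m : ℕ))) := by
      rw [mul_one]
      refine h3.trans ?_
      have h7 : 0 ≤ (n : ℝ) ^ Y.card * ((n ^ C.card).choose m : ℕ) := by positivity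
      calc (St.card : ℝ) * ((n : ℝ) ^ Y.card * ((n ^ C.card).choose m : ℕ))
          ≤ (q ^ U.card * n.factorial) * ((n : ℝ) ^ Y.card * ((n ^ C.card).choose m : ℕ)) :=
            mul_le_mul_of_nonneg_right h1 h7
        _ = _ := by ring
    exact le_of_mul_le_mul_left h6 hn
  calc ((m.factorial : ℕ) : ℝ) = (m.factorial : ℝ) * 1 := (mul_one _).symm
    _ ≤ (m.factorial : ℝ) * (q ^ U.card * ((n : ℝ) ^ Y.card * ((n ^ C.card).choose m : ℕ))) :=
        mul_le_mul_of_nonneg_left h5 (by positivity)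
    _ = q ^ U.card * (n : ℝ) ^ Y.card * ((m.factorial : ℝ) * ((n ^ C.card).choose m : ℕ)) := by
        ring
    _ ≤ q ^ U.card * (n : ℝ) ^ Y.card * ((n : ℝ) ^ C.card) ^ m :=
        mul_le_mul_of_nonneg_left h4 (by positivity)
    _ = _ := by ring

end VP064
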