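import Vale.Agent.P064.Or.Base

/-!
# Fractional orientations
-/

namespace VP064

open Finset

open Classical in
theorem exists_orientation {n : ℕ} (E : Finset (Sym2 (Fin n))) (hdiag : ∀ e ∈ E, ¬ e.IsDiag)
    (N M : ℕ) (hN : 0 < N)
    (hd : ∀ E' ⊆ E, N * E'.card ≤ M * (univ.filter fun x : Fin n => ∃ e ∈ E', x ∈ e).card) :
    ∃ out : Fin n → Fin n → Prop,
      (∀ x y, out x y → s(x, y) ∈ E) ∧
      (∀ x y, s(x, y) ∈ E → out x y ∨ out y x) ∧
      (∀ x, (univ.filter fun y => out x y).card ≤ M) ∧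
      (∀ (C : Finset (Fin n)) (E' : Finset (Sym2 (Fin n))), E' ⊆ E →
        (∀ e ∈ E', ∃ x ∈ C, ∃ y, e = s(x, y) ∧ (y ∈ C ∨ ¬ out y x)) →
        N * E'.card ≤ M * C.card) := by
  let slots : {e // e ∈ E} × Fin N → Finset (Fin n × Fin M) :=
    fun u => univ.filter (fun p => p.1 ∈ u.1.1)
  have hall : ∀ S : Finset ({e // e ∈ E} × Fin N), S.card ≤ (S.biUnion slots).card := by
    intro S
    have hE' : S.image (fun u => u.1.1) ⊆ E := by
      intro e he
      obtain ⟨u, _, rfl⟩ := mem_image.1 he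
      exact u.1.2
    have h1 : S.card ≤ N * (S.image (fun u => u.1.1)).card := by
      have h2 : S.card ≤ ((S.image (fun u => u.1.1)) ×ˢ (univ : Finset (Fin N))).card := by
        apply card_le_card_of_injOn (fun u => (u.1.1, u.2))
        · intro u hu
          simp only [coe_product, Set.mem_prod, mem_coe]
          exact ⟨mem_image_of_mem _ hu, mem_univ _⟩
        · intro u _ v _ huv
          simp only [Prod.mk.injEq] at huv
          exact Prod.ext (Subtype.ext huv.1) huv.2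
      rw [card_product, card_univ, Fintype.card_fin, mul_comm] at h2
      exact h2
    have h3 : (univ.filter fun x : Fin n => ∃ e ∈ S.image (fun u => u.1.1), x ∈ e).card * M ≤
        (S.biUnion slots).card := by
      have h4 : (univ.filter fun x : Fin n => ∃ e ∈ S.image (fun u => u.1.1), x ∈ e) ×ˢ
          (univ : Finset (Fin M)) ⊆ S.biUnion slots := by
        intro p hp
        rw [mem_product, mem_filter] at hp
        obtain ⟨⟨_, e, he, hx⟩, _⟩ := hp
        obtain ⟨u, hu, rfl⟩ := mem_image.1 he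
        exact mem_biUnion.2 ⟨u, hu, mem_filter.2 ⟨mem_univ _, hx⟩⟩
      have h5 := card_le_card h4
      rw [card_product, card_univ, Fintype.card_fin] at h5
      exact h5
    calc S.card ≤ _ := h1
      _ ≤ _ := hd _ hE'
      _ = _ := mul_comm _ _
      _ ≤ _ := h3
  obtain ⟨f, hf, hmem⟩ := (Finset.all_card_le_biUnion_card_iff_exists_injective slots).1 hall
  have hmem' : ∀ (e : Sym2 (Fin n)) (h : e ∈ E) (i : Fin N), (f (⟨e, h⟩, i)).1 ∈ e := by
    intro e h i
    exact (mem_filter.1 (hmem (⟨e, h⟩, i))).2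
  obtain ⟨out, hout⟩ : ∃ out : Fin n → Fin n → Prop, ∀ x y, out x y ↔
      ∃ h : s(x, y) ∈ E, ∃ i : Fin N, (f (⟨s(x, y), h⟩, i)).1 = x :=
    ⟨fun x y => ∃ h : s(x, y) ∈ E, ∃ i : Fin N, (f (⟨s(x, y), h⟩, i)).1 = x,
      fun _ _ => Iff.rfl⟩
  refine ⟨out, ?_, ?_, ?_, ?_⟩
  · intro x y hxy
    obtain ⟨h, _⟩ := (hout x y).1 hxy
    exact h
  · intro x y h
    have h1 := hmem' _ h ⟨0, hN⟩
    rw [Sym2.mem_iff] at h1
    rcases h1 with h1 | h1
    · exact Or.inl ((hout x y).2 ⟨h, ⟨0, hN⟩, h1⟩)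
    · right
      have h2 : s(y, x) = s(x, y) := Sym2.eq_swap
      refine (hout y x).2 ⟨h2 ▸ h, ⟨0, hN⟩, ?_⟩
      have h3 : (⟨s(y, x), h2 ▸ h⟩ : {e // e ∈ E}) = ⟨s(x, y), h⟩ := Subtype.ext h2
      rw [h3]
      exact h1
  · intro x
    refine le_trans (card_le_card_of_forall_subsingleton
        (t := ({x} : Finset (Fin n)) ×ˢ (univ : Finset (Fin M)))
        (fun (y : Fin n) (p : Fin n × Fin M) => ∃ h : s(x, y) ∈ E, ∃ i : Fin N,
          f (⟨s(x, y), h⟩, i) = p) ?_ ?_) ?_
    · intro y hy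
      obtain ⟨h, i, hi⟩ := (hout x y).1 (mem_filter.1 hy).2
      exact ⟨f (⟨s(x, y), h⟩, i), mem_product.2 ⟨mem_singleton.2 hi, mem_univ _⟩, h, i, rfl⟩
    · rintro p _ y ⟨_, h, i, hi⟩ y' ⟨_, h', i', hi'⟩
      have h2 := hf (hi.trans hi'.symm)
      have h3 : s(x, y) = s(x, y') := congrArg (fun u => u.1.1) h2
      exact Sym2.congr_right.1 h3
    · rw [card_product, card_singleton, card_univ, Fintype.card_fin, one_mul]
  · intro C E' hE' hw
    have h1 : (E' ×ˢ (univ : Finset (Fin N))).card ≤ (C ×ˢ (univ : Finset (Fin M))).card := by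
      apply card_le_card_of_forall_subsingleton
        (fun (u : Sym2 (Fin n) × Fin N) (p : Fin n × Fin M) => ∃ h : u.1 ∈ E,
          f (⟨u.1, h⟩, u.2) = p)
      · rintro ⟨e, i⟩ hu
        have he := (mem_product.1 hu).1
        obtain ⟨x, hx, y, hxy, hy⟩ := hw e he
        have heE : e ∈ E := hE' he
        refine ⟨f (⟨e, heE⟩, i), mem_product.2 ⟨?_, mem_univ _⟩, heE, rfl⟩
        have h2 := hmem' e heE i
        have h2' : (f (⟨e, heE⟩, i)).1 ∈ s(x, y) := hxy ▸ h2
        rw [Sym2.mem_iff] at h2'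
        rcases h2' with h2' | h2'
        · rw [h2']; exact hx
        · rcases hy with hy | hy
          · rw [h2']; exact hy
          · exfalso
            apply hy
            have h3 : s(y, x) = e := by rw [hxy]; exact Sym2.eq_swap
            refine (hout y x).2 ⟨h3 ▸ heE, i, ?_⟩
            have h4 : (⟨s(y, x), h3 ▸ heE⟩ : {e // e ∈ E}) = ⟨e, heE⟩ := Subtype.ext h3
            rw [h4]
            exact h2'
      · rintro p _ ⟨e, i⟩ ⟨_, h, hi⟩ ⟨e', i'⟩ ⟨_, h', hi'⟩
        have h2 := hf (hi.trans hi'.symm)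
        have h3 : e = e' := congrArg (fun u => u.1.1) h2
        have h4 : i = i' := congrArg (fun u => u.2) h2
        rw [h3, h4]
    rw [card_product, card_product, card_univ, card_univ, Fintype.card_fin,
      Fintype.card_fin] at h1
    calc N * E'.card = E'.card * N := mul_comm _ _
      _ ≤ C.card * M := h1
      _ = M * C.card := mul_comm _ _

end VP064
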