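import Vale.Agent.P064.Or.Base

/-!
# Counting maps by exploring along bounded out-degrees
-/

namespace VP064

open Finset

open Classical in
/-- restriction to `S`, filled up by `χ` -/
noncomputable def rcRes {n : ℕ} {X : Type} (χ : X → Fin n) (S : Finset X) (φ : X → Fin n) :
    X → Fin n := fun x => if x ∈ S then φ x else χ x

theorem rcRes_mem {n : ℕ} {X : Type} (χ : X → Fin n) (S : Finset X) (φ : X → Fin n) {x : X}
    (hx : x ∈ S) : rcRes χ S φ x = φ x := by
  unfold rcRes; rw [if_pos hx]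

theorem rcRes_not_mem {n : ℕ} {X : Type} (χ : X → Fin n) (S : Finset X) (φ : X → Fin n) {x : X}
    (hx : x ∉ S) : rcRes χ S φ x = χ x := by
  unfold rcRes; rw [if_neg hx]

open Classical in
theorem rc_ind {n : ℕ} {X : Type} [Fintype X] (out : Fin n → Fin n → Prop) (M : ℕ)
    (hM : ∀ x, (univ.filter fun y => out x y).card ≤ M) (C : Finset X) (D : X → X → Prop)
    (c : X) (hc : c ∈ C)
    (hreach : ∀ S ⊆ C, c ∈ S → (∀ a ∈ S, ∀ b ∈ C, D a b → b ∈ S) → S = C)
    (χ : X → Fin n) (u : Fin n) (F : Finset (X → Fin n))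
    (h2 : ∀ φ ∈ F, φ c = u)
    (h3 : ∀ φ ∈ F, ∀ a ∈ C, ∀ b ∈ C, D a b → out (φ a) (φ b)) (j : ℕ) :
    j + 1 ≤ C.card → ∃ S ⊆ C, c ∈ S ∧ S.card = j + 1 ∧ (F.image (rcRes χ S)).card ≤ M ^ j := by
  induction j with
  | zero =>
    intro _
    refine ⟨{c}, by simpa using hc, by simp, by simp, ?_⟩
    rw [pow_zero, Finset.card_le_one]
    intro a ha b hb
    obtain ⟨φ, hφ, rfl⟩ := Finset.mem_image.1 ha
    obtain ⟨ψ, hψ, rfl⟩ := Finset.mem_image.1 hb
    funext x
    by_cases hx : x ∈ ({c} : Finset X)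
    · rw [rcRes_mem _ _ _ hx, rcRes_mem _ _ _ hx]
      rw [Finset.mem_singleton] at hx
      rw [hx, h2 φ hφ, h2 ψ hψ]
    · rw [rcRes_not_mem _ _ _ hx, rcRes_not_mem _ _ _ hx]
  | succ j ih =>
    intro hj
    obtain ⟨S, hSC, hcS, hcard, hS⟩ := ih (by omega)
    have hne : S ≠ C := by
      rintro rfl
      omega
    have hex : ∃ a ∈ S, ∃ b ∈ C, D a b ∧ b ∉ S := by
      by_contra hcon
      apply hne
      apply hreach S hSC hcS
      intro a ha b hb hD
      by_contra hbS
      exact hcon ⟨a, ha, b, hb, hD, hbS⟩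
    obtain ⟨a, ha, b, hb, hD, hbS⟩ := hex
    refine ⟨insert b S, ?_, Finset.mem_insert_of_mem hcS, ?_, ?_⟩
    · intro x hx
      rcases Finset.mem_insert.1 hx with h | h
      · rw [h]; exact hb
      · exact hSC h
    · rw [Finset.card_insert_of_notMem hbS, hcard]
    · have hmaps : ∀ ψ ∈ F.image (rcRes χ (insert b S)), rcRes χ S ψ ∈ F.image (rcRes χ S) := by
        intro ψ hψ
        obtain ⟨φ, hφ, rfl⟩ := Finset.mem_image.1 hψ
        refine Finset.mem_image.2 ⟨φ, hφ, ?_⟩
        funext x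
        by_cases hx : x ∈ S
        · rw [rcRes_mem _ _ _ hx, rcRes_mem _ _ _ hx, rcRes_mem _ _ _ (Finset.mem_insert_of_mem hx)]
        · rw [rcRes_not_mem _ _ _ hx, rcRes_not_mem _ _ _ hx]
      have hfib : ∀ g ∈ F.image (rcRes χ S),
          ((F.image (rcRes χ (insert b S))).filter fun ψ => rcRes χ S ψ = g).card ≤ M := by
        intro g _
        refine le_trans ?_ (hM (g a))
        apply Finset.card_le_card_of_injOn (fun ψ => ψ b)
        · intro ψ hψ
          have hψ' := Finset.mem_filter.1 (Finset.mem_coe.1 hψ)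
          obtain ⟨φ, hφ, hφψ⟩ := Finset.mem_image.1 hψ'.1
          have e1 : g a = φ a := by
            rw [← hψ'.2, rcRes_mem _ _ _ ha, ← hφψ, rcRes_mem _ _ _ (Finset.mem_insert_of_mem ha)]
          have e2 : ψ b = φ b := by
            rw [← hφψ, rcRes_mem _ _ _ (Finset.mem_insert_self b S)]
          apply Finset.mem_coe.2
          refine Finset.mem_filter.2 ⟨Finset.mem_univ _, ?_⟩
          show out (g a) (ψ b)
          rw [e1, e2]
          exact h3 φ hφ a (hSC ha) b hb hD
        · intro ψ hψ ψ' hψ' hbb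
          have hA := Finset.mem_filter.1 (Finset.mem_coe.1 hψ)
          have hA' := Finset.mem_filter.1 (Finset.mem_coe.1 hψ')
          obtain ⟨φ, hφ, hφψ⟩ := Finset.mem_image.1 hA.1
          obtain ⟨φ', hφ', hφψ'⟩ := Finset.mem_image.1 hA'.1
          funext x
          by_cases hx : x ∈ S
          · have e1 := congrFun (hA.2.trans hA'.2.symm) x
            rw [rcRes_mem _ _ _ hx, rcRes_mem _ _ _ hx] at e1
            exact e1
          · by_cases hxb : x = b
            · rw [hxb]; exact hbb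
            · have hx' : x ∉ insert b S := by
                rw [Finset.mem_insert]
                rintro (h | h)
                · exact hxb h
                · exact hx h
              rw [← hφψ, ← hφψ', rcRes_not_mem _ _ _ hx', rcRes_not_mem _ _ _ hx']
      have h := Finset.card_le_mul_card_image_of_maps_to hmaps M hfib
      calc (F.image (rcRes χ (insert b S))).card ≤ M * (F.image (rcRes χ S)).card := h
        _ ≤ M * M ^ j := Nat.mul_le_mul_left _ hS
        _ = M ^ (j + 1) := by rw [pow_succ, mul_comm]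

open Classical in
theorem reach_count {n : ℕ} {X : Type} [Fintype X] (out : Fin n → Fin n → Prop) (M : ℕ)
    (hM : ∀ x, (univ.filter fun y => out x y).card ≤ M) (C : Finset X) (D : X → X → Prop)
    (c : X) (hc : c ∈ C)
    (hreach : ∀ S ⊆ C, c ∈ S → (∀ a ∈ S, ∀ b ∈ C, D a b → b ∈ S) → S = C)
    (χ : X → Fin n) (u : Fin n) (F : Finset (X → Fin n))
    (h1 : ∀ φ ∈ F, ∀ x, x ∉ C → φ x = χ x) (h2 : ∀ φ ∈ F, φ c = u)
    (h3 : ∀ φ ∈ F, ∀ a ∈ C, ∀ b ∈ C, D a b → out (φ a) (φ b)) :
    F.card ≤ M ^ (C.card - 1) := by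
  have hpos : 0 < C.card := Finset.card_pos.2 ⟨c, hc⟩
  obtain ⟨S, hSC, _, hcard, hS⟩ :=
    rc_ind out M hM C D c hc hreach χ u F h2 h3 (C.card - 1) (by omega)
  have hSeq : S = C := Finset.eq_of_subset_of_card_le hSC (by omega)
  subst hSeq
  refine le_trans ?_ hS
  apply le_of_eq
  symm
  apply Finset.card_image_of_injOn
  intro φ hφ ψ hψ h
  funext x
  by_cases hx : x ∈ S
  · have e := congrFun h x
    rw [rcRes_mem _ _ _ hx, rcRes_mem _ _ _ hx] at e
    exact e
  · rw [h1 φ hφ x hx, h1 ψ hψ x hx]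

end VP064
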