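import Vale.Agent.P064.Or.Ext
import Vale.Agent.P064.Or.Orient
import Vale.Agent.P064.Or.Reach
import Vale.Agent.P064.Or.Num

/-!
# Counting embeddings with a given orientation pattern
-/

namespace VP064

open Finset

variable {n : ℕ} {X : Type} [Fintype X]

set_option linter.unusedSectionVars false

/-- each pattern edge is represented by one arc -/
def Simp (A : Finset (X × X)) : Prop :=
  ∀ p ∈ A, ∀ p' ∈ A, s(p.1, p.2) = s(p'.1, p'.2) → p = p'

open Classical in
/-- arcs inside `B` -/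
noncomputable def arcs (A : Finset (X × X)) (B : Finset X) : Finset (X × X) :=
  A.filter fun p => p.1 ∈ B ∧ p.2 ∈ B

/-- `S` is closed under predecessors inside `B`. -/
def Cl (A : Finset (X × X)) (D : X → X → Prop) (B S : Finset X) : Prop :=
  ∀ p ∈ A, p.1 ∈ B → p.2 ∈ B →
    (p.2 ∈ S → D p.1 p.2 → p.1 ∈ S) ∧ (p.1 ∈ S → D p.2 p.1 → p.2 ∈ S)

open Classical in
/-- Embeddings with pattern `D`. -/
noncomputable def EmbD (E : Finset (Sym2 (Fin n))) (out : Fin n → Fin n → Prop)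
    (A : Finset (X × X)) (D : X → X → Prop) (v0 : Fin n) (B : Finset X) :
    Finset (X → Fin n) :=
  univ.filter fun φ => (∀ x, x ∉ B → φ x = v0) ∧
    (∀ a ∈ B, ∀ b ∈ B, φ a = φ b → a = b) ∧
    ∀ p ∈ A, p.1 ∈ B → p.2 ∈ B → s(φ p.1, φ p.2) ∈ E ∧
      (D p.1 p.2 ↔ out (φ p.1) (φ p.2)) ∧ (D p.2 p.1 ↔ out (φ p.2) (φ p.1))

open Classical in
lemma mem_EmbD {E : Finset (Sym2 (Fin n))} {out : Fin n → Fin n → Prop}
    {A : Finset (X × X)} {D : X → X → Prop} {v0 : Fin n} {B : Finset X} {φ : X → Fin n} :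
    φ ∈ EmbD E out A D v0 B ↔ (∀ x, x ∉ B → φ x = v0) ∧
    (∀ a ∈ B, ∀ b ∈ B, φ a = φ b → a = b) ∧
    ∀ p ∈ A, p.1 ∈ B → p.2 ∈ B → s(φ p.1, φ p.2) ∈ E ∧
      (D p.1 p.2 ↔ out (φ p.1) (φ p.2)) ∧ (D p.2 p.1 ↔ out (φ p.2) (φ p.1)) := by
  unfold EmbD
  rw [Finset.mem_filter]
  simp

open Classical in
/-- restriction -/
noncomputable def res (v0 : Fin n) (B : Finset X) (φ : X → Fin n) : X → Fin n :=
  fun x => if x ∈ B then φ x else v0

lemma res_of_mem {v0 : Fin n} {B : Finset X} {φ : X → Fin n} {x : X} (h : x ∈ B) :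
    res v0 B φ x = φ x := by
  unfold res
  rw [if_pos h]

lemma res_of_not_mem {v0 : Fin n} {B : Finset X} {φ : X → Fin n} {x : X} (h : x ∉ B) :
    res v0 B φ x = v0 := by
  unfold res
  rw [if_neg h]

lemma res_mem {E : Finset (Sym2 (Fin n))} {out : Fin n → Fin n → Prop}
    {A : Finset (X × X)} {D : X → X → Prop} {v0 : Fin n} {B B' : Finset X} (hB : B' ⊆ B)
    {φ : X → Fin n} (h : φ ∈ EmbD E out A D v0 B) : res v0 B' φ ∈ EmbD E out A D v0 B' := by
  rw [mem_EmbD] at h ⊢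
  obtain ⟨_, h2, h3⟩ := h
  refine ⟨fun x hx => res_of_not_mem hx, ?_, ?_⟩
  · intro a ha b hb hab
    rw [res_of_mem ha, res_of_mem hb] at hab
    exact h2 a (hB ha) b (hB hb) hab
  · intro p hp h1 h2
    rw [res_of_mem h1, res_of_mem h2]
    exact h3 p hp (hB h1) (hB h2)

lemma reach_of_min {A : Finset (X × X)} {D : X → X → Prop} {B C : Finset X}
    (hcl : Cl A D B C) (hmin : ∀ S ⊆ C, S.Nonempty → Cl A D B S → S = C) {c : X}
    {S : Finset X} (hS : S ⊆ C) (hcS : c ∈ S)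
    (hsucc : ∀ a ∈ S, ∀ b ∈ C, (D a b ∧ ((a, b) ∈ A ∨ (b, a) ∈ A)) → b ∈ S) : S = C := by
  classical
  by_contra hne
  have h1 : (C \ S).Nonempty := by
    rw [Finset.sdiff_nonempty]
    intro h
    exact hne (Finset.Subset.antisymm hS h)
  have h2 : Cl A D B (C \ S) := by
    intro p hp hp1 hp2
    constructor
    · intro h3 h4
      rw [Finset.mem_sdiff] at h3 ⊢
      refine ⟨(hcl p hp hp1 hp2).1 h3.1 h4, ?_⟩
      intro h5
      exact h3.2 (hsucc p.1 h5 p.2 h3.1 ⟨h4, Or.inl hp⟩)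
    · intro h3 h4
      rw [Finset.mem_sdiff] at h3 ⊢
      refine ⟨(hcl p hp hp1 hp2).2 h3.1 h4, ?_⟩
      intro h5
      exact h3.2 (hsucc p.2 h5 p.1 h3.1 ⟨h4, Or.inr hp⟩)
  have h3 := hmin (C \ S) Finset.sdiff_subset h1 h2
  have h4 : c ∈ C \ S := by
    rw [h3]
    exact hS hcS
  exact (Finset.mem_sdiff.mp h4).2 hcS

open Classical in
lemma arcs_split (A : Finset (X × X)) (B C : Finset X) :
    (arcs A B).card = (arcs A (B \ C)).card +
      ((arcs A B).filter fun p => p.1 ∈ C ∨ p.2 ∈ C).card := by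
  have h1 : arcs A (B \ C) = (arcs A B).filter fun p => ¬ (p.1 ∈ C ∨ p.2 ∈ C) := by
    ext p
    unfold arcs
    simp only [Finset.mem_filter, Finset.mem_sdiff]
    tauto
  rw [h1, add_comm]
  exact (Finset.card_filter_add_card_filter_not (s := arcs A B)
    (fun p => p.1 ∈ C ∨ p.2 ∈ C)).symm

open Classical in
theorem fibre_bound {q : ℝ} (hn : 3 ≤ n) (hq : 0 < q) (hq1 : 1 ≤ Real.log (1 / q))
    {E : Finset (Sym2 (Fin n))} (hE : Inc q E) {N M : ℕ}
    (hN : N = ⌈Real.log (1 / q)⌉₊)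
    (hM : M = ⌈Real.log n / Real.log (1 / q) * N⌉₊)
    {out : Fin n → Fin n → Prop}
    (hout : ∀ x, (univ.filter fun y => out x y).card ≤ M)
    (hdens : ∀ (C : Finset (Fin n)) (E' : Finset (Sym2 (Fin n))), E' ⊆ E →
        (∀ e ∈ E', ∃ x ∈ C, ∃ y, e = s(x, y) ∧ (y ∈ C ∨ ¬ out y x)) →
        N * E'.card ≤ M * C.card)
    {A : Finset (X × X)} (hA : Simp A) {D : X → X → Prop} (v0 : Fin n) {B C : Finset X}
    (hCB : C ⊆ B) (hC : C.Nonempty) (hcl : Cl A D B C)
    (hmin : ∀ S ⊆ C, S.Nonempty → Cl A D B S → S = C) (χ : X → Fin n) :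
    (((EmbD E out A D v0 B).filter fun φ => res v0 (B \ C) φ = χ).card : ℝ) ≤
      (132 * Real.log n * n) ^ C.card *
        (2 * q) ^ ((arcs A B).filter fun p => p.1 ∈ C ∨ p.2 ∈ C).card := by
  set F := (EmbD E out A D v0 B).filter fun φ => res v0 (B \ C) φ = χ with hF
  set T := (arcs A B).filter fun p => p.1 ∈ C ∨ p.2 ∈ C with hT
  set Y := (B \ C).filter fun y => ∃ p ∈ T, p.1 = y ∨ p.2 = y with hY
  have memT : ∀ p ∈ T, p ∈ A ∧ p.1 ∈ B ∧ p.2 ∈ B ∧ (p.1 ∈ C ∨ p.2 ∈ C) := by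
    intro p hp
    rw [hT, Finset.mem_filter] at hp
    unfold arcs at hp
    rw [Finset.mem_filter] at hp
    exact ⟨hp.1.1, hp.1.2.1, hp.1.2.2, hp.2⟩
  have hTY : ∀ p ∈ T, p.1 ∈ C ∪ Y ∧ p.2 ∈ C ∪ Y := by
    intro p hp
    obtain ⟨_, h1, h2, _⟩ := memT p hp
    constructor
    · by_cases h : p.1 ∈ C
      · exact Finset.mem_union_left _ h
      · apply Finset.mem_union_right
        rw [hY, Finset.mem_filter]
        exact ⟨Finset.mem_sdiff.mpr ⟨h1, h⟩, p, hp, Or.inl rfl⟩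
    · by_cases h : p.2 ∈ C
      · exact Finset.mem_union_left _ h
      · apply Finset.mem_union_right
        rw [hY, Finset.mem_filter]
        exact ⟨Finset.mem_sdiff.mpr ⟨h2, h⟩, p, hp, Or.inr rfl⟩
  have hCY : C ∪ Y ⊆ B := by
    apply Finset.union_subset hCB
    intro y hy
    rw [hY, Finset.mem_filter] at hy
    exact (Finset.mem_sdiff.mp hy.1).1
  have hYT : Y.card ≤ T.card := by
    have h1 : Y ⊆ T.image fun p => if p.1 ∈ C then p.2 else p.1 := by
      intro y hy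
      rw [hY, Finset.mem_filter] at hy
      obtain ⟨hy1, p, hp, hpy⟩ := hy
      have hyC : y ∉ C := (Finset.mem_sdiff.mp hy1).2
      obtain ⟨_, _, _, h4⟩ := memT p hp
      rw [Finset.mem_image]
      refine ⟨p, hp, ?_⟩
      rcases hpy with h5 | h5
      · have h6 : p.1 ∉ C := by rw [h5]; exact hyC
        rw [if_neg h6]
        exact h5
      · have h6 : p.2 ∉ C := by rw [h5]; exact hyC
        have h7 : p.1 ∈ C := by tauto
        rw [if_pos h7]
        exact h5
    exact (Finset.card_le_card h1).trans Finset.card_image_le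
  have memF : ∀ φ ∈ F, φ ∈ EmbD E out A D v0 B ∧ res v0 (B \ C) φ = χ := by
    intro φ hφ
    rw [hF, Finset.mem_filter] at hφ
    exact hφ
  have hTinj : ∀ p ∈ T, ∀ p' ∈ T, s(p.1, p.2) = s(p'.1, p'.2) → p = p' := by
    intro p hp p' hp' h
    exact hA p (memT p hp).1 p' (memT p' hp').1 h
  have g1 : ∀ φ ∈ F, ∀ x, x ∉ C → φ x = χ x := by
    intro φ hφ x hx
    obtain ⟨h1, h2⟩ := memF φ hφ
    rw [← h2]
    by_cases hxB : x ∈ B
    · rw [res_of_mem (Finset.mem_sdiff.mpr ⟨hxB, hx⟩)]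
    · rw [res_of_not_mem (fun h => hxB (Finset.mem_sdiff.mp h).1)]
      exact (mem_EmbD.mp h1).1 x hxB
  have g2 : ∀ φ ∈ F, ∀ a ∈ C ∪ Y, ∀ b ∈ C ∪ Y, φ a = φ b → a = b := by
    intro φ hφ a ha b hb hab
    exact (mem_EmbD.mp (memF φ hφ).1).2.1 a (hCY ha) b (hCY hb) hab
  have g3 : ∀ φ ∈ F, im T φ ⊆ E := by
    intro φ hφ e he
    unfold im at he
    rw [Finset.mem_image] at he
    obtain ⟨p, hp, rfl⟩ := he
    obtain ⟨h1, h2, h3, _⟩ := memT p hp
    exact ((mem_EmbD.mp (memF φ hφ).1).2.2 p h1 h2 h3).1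
  have hK : ∀ c ∈ C, ∀ u : Fin n, (F.filter fun φ => φ c = u).card ≤ M ^ (C.card - 1) := by
    intro c hc u
    apply reach_count out M hout C (fun a b => D a b ∧ ((a, b) ∈ A ∨ (b, a) ∈ A)) c hc
      (fun S hS hcS hsucc => reach_of_min hcl hmin hS hcS hsucc) χ u
    · intro φ hφ
      exact g1 φ (Finset.mem_filter.mp hφ).1
    · intro φ hφ
      exact (Finset.mem_filter.mp hφ).2
    · intro φ hφ a ha b hb hab
      have h1 := (mem_EmbD.mp (memF φ (Finset.mem_filter.mp hφ).1).1).2.2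
      obtain ⟨hD, h2 | h2⟩ := hab
      · exact (h1 (a, b) h2 (hCB ha) (hCB hb)).2.1.mp hD
      · exact (h1 (b, a) h2 (hCB hb) (hCB ha)).2.2.mp hD
  obtain ⟨m, hm1, hm2⟩ := ext_count hq hE T C Y hTY (fun p hp => (memT p hp).2.2.2) hTinj χ F
    g1 g2 g3 _ hK hC
  rcases Finset.eq_empty_or_nonempty F with hFe | ⟨φ, hφ⟩
  · rw [hFe]
    simp only [Finset.card_empty, Nat.cast_zero]
    have : 0 ≤ Real.log n := Real.log_natCast_nonneg n
    positivity
  · have hn1 : (1 : ℝ) ≤ n := by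
      exact_mod_cast (by omega : 1 ≤ n)
    have hdd : N * T.card ≤ M * C.card := by
      have h1 := hdens (C.image φ) (im T φ) (g3 φ hφ) ?_
      · have h2 : (im T φ).card = T.card := by
          unfold im
          apply Finset.card_image_of_injOn
          intro p hp p' hp' h
          apply hTinj p hp p' hp'
          have i1 := hTY p hp
          have i2 := hTY p' hp'
          simp only at h
          rw [Sym2.eq_iff] at h ⊢
          rcases h with ⟨ha, hb⟩ | ⟨ha, hb⟩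
          · exact Or.inl ⟨g2 φ hφ _ i1.1 _ i2.1 ha, g2 φ hφ _ i1.2 _ i2.2 hb⟩
          · exact Or.inr ⟨g2 φ hφ _ i1.1 _ i2.2 ha, g2 φ hφ _ i1.2 _ i2.1 hb⟩
        rw [h2] at h1
        exact h1.trans (Nat.mul_le_mul_left _ Finset.card_image_le)
      · intro e he
        unfold im at he
        rw [Finset.mem_image] at he
        obtain ⟨p, hp, rfl⟩ := he
        obtain ⟨h1, h2, h3, h4⟩ := memT p hp
        have h5 := (mem_EmbD.mp (memF φ hφ).1).2.2 p h1 h2 h3
        have h6 := hcl p h1 h2 h3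
        by_cases h7 : p.1 ∈ C
        · refine ⟨φ p.1, Finset.mem_image_of_mem φ h7, φ p.2, rfl, ?_⟩
          by_cases h8 : p.2 ∈ C
          · exact Or.inl (Finset.mem_image_of_mem φ h8)
          · right
            intro h9
            exact h8 (h6.2 h7 (h5.2.2.mpr h9))
        · have h8 : p.2 ∈ C := by tauto
          refine ⟨φ p.2, Finset.mem_image_of_mem φ h8, φ p.1, Sym2.eq_swap, ?_⟩
          right
          intro h9
          exact h7 (h6.1 h8 (h5.2.1.mpr h9))
    have hm3 : ((m.factorial : ℕ) : ℝ) ≤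
        (n : ℝ) ^ T.card * ((n : ℝ) ^ C.card * q ^ T.card) ^ m := by
      refine hm2.trans ?_
      apply mul_le_mul_of_nonneg_right _ (by positivity)
      exact pow_le_pow_right₀ hn1 hYT
    have hm4 := fact_bound (by omega) (by positivity) hm3
    exact step_num hn (Finset.card_pos.mpr hC) hq hq1 hN hM hdd hm4 hm1

open Classical in
lemma exists_min_closed {A : Finset (X × X)} {D : X → X → Prop} {B : Finset X}
    (hB : B.Nonempty) :
    ∃ C ⊆ B, C.Nonempty ∧ Cl A D B C ∧ ∀ S ⊆ C, S.Nonempty → Cl A D B S → S = C := by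
  have h1 : (B.powerset.filter fun S => S.Nonempty ∧ Cl A D B S).Nonempty := by
    refine ⟨B, ?_⟩
    rw [Finset.mem_filter, Finset.mem_powerset]
    refine ⟨Finset.Subset.refl _, hB, ?_⟩
    intro p _ h1 h2
    exact ⟨fun _ _ => h1, fun _ _ => h2⟩
  obtain ⟨C, hC, hmin⟩ := Finset.exists_min_image _ (fun S => S.card) h1
  rw [Finset.mem_filter, Finset.mem_powerset] at hC
  refine ⟨C, hC.1, hC.2.1, hC.2.2, ?_⟩
  intro S hS hSn hScl
  apply Finset.eq_of_subset_of_card_le hS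
  apply hmin
  rw [Finset.mem_filter, Finset.mem_powerset]
  exact ⟨hS.trans hC.1, hSn, hScl⟩

open Classical in
theorem embD_bound {q : ℝ} (hn : 3 ≤ n) (hq : 0 < q) (hq1 : 1 ≤ Real.log (1 / q))
    {E : Finset (Sym2 (Fin n))} (hE : Inc q E) {N M : ℕ}
    (hN : N = ⌈Real.log (1 / q)⌉₊)
    (hM : M = ⌈Real.log n / Real.log (1 / q) * N⌉₊)
    {out : Fin n → Fin n → Prop}
    (hout : ∀ x, (univ.filter fun y => out x y).card ≤ M)
    (hdens : ∀ (C : Finset (Fin n)) (E' : Finset (Sym2 (Fin n))), E' ⊆ E →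
        (∀ e ∈ E', ∃ x ∈ C, ∃ y, e = s(x, y) ∧ (y ∈ C ∨ ¬ out y x)) →
        N * E'.card ≤ M * C.card)
    {A : Finset (X × X)} (hA : Simp A) (D : X → X → Prop) (v0 : Fin n) :
    ∀ (k : ℕ) (B : Finset X), B.card = k →
    ((EmbD E out A D v0 B).card : ℝ) ≤
      (132 * Real.log n * n) ^ B.card * (2 * q) ^ (arcs A B).card := by
  have hlog : 0 ≤ Real.log n := Real.log_natCast_nonneg n
  intro k
  induction k using Nat.strong_induction_on with
  | _ k ih =>
  intro B hBk
  rcases Finset.eq_empty_or_nonempty B with hB | hB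
  · subst hB
    have h1 : arcs A (∅ : Finset X) = ∅ := by
      unfold arcs
      simp
    have h2 : (EmbD E out A D v0 ∅).card ≤ 1 := by
      rw [Finset.card_le_one]
      intro φ hφ ψ hψ
      ext x
      rw [(mem_EmbD.mp hφ).1 x (Finset.notMem_empty x), (mem_EmbD.mp hψ).1 x (Finset.notMem_empty x)]
    rw [h1]
    simp only [Finset.card_empty, pow_zero, mul_one]
    exact_mod_cast h2
  · obtain ⟨C, hCB, hC, hcl, hmin⟩ := exists_min_closed (A := A) (D := D) hB
    have hcard : (B \ C).card < k := by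
      rw [← hBk]
      apply Finset.card_lt_card
      rw [Finset.ssubset_iff_subset_ne]
      refine ⟨Finset.sdiff_subset, ?_⟩
      intro h
      obtain ⟨c, hc⟩ := hC
      have : c ∈ B \ C := by rw [h]; exact hCB hc
      exact (Finset.mem_sdiff.mp this).2 hc
    have h1 := ih _ hcard (B \ C) rfl
    have h2 : (EmbD E out A D v0 B).card =
        ∑ χ ∈ EmbD E out A D v0 (B \ C),
          ((EmbD E out A D v0 B).filter fun φ => res v0 (B \ C) φ = χ).card := by
      apply Finset.card_eq_sum_card_fiberwise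
      intro φ hφ
      exact res_mem Finset.sdiff_subset hφ
    have h3 : ((EmbD E out A D v0 B).card : ℝ) ≤
        (EmbD E out A D v0 (B \ C)).card * ((132 * Real.log n * n) ^ C.card *
        (2 * q) ^ ((arcs A B).filter fun p => p.1 ∈ C ∨ p.2 ∈ C).card) := by
      rw [h2]
      push_cast
      calc (∑ χ ∈ EmbD E out A D v0 (B \ C),
          (((EmbD E out A D v0 B).filter fun φ => res v0 (B \ C) φ = χ).card : ℝ))
          ≤ ∑ _χ ∈ EmbD E out A D v0 (B \ C), ((132 * Real.log n * n) ^ C.card *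
        (2 * q) ^ ((arcs A B).filter fun p => p.1 ∈ C ∨ p.2 ∈ C).card) := by
            apply Finset.sum_le_sum
            intro χ _
            exact fibre_bound hn hq hq1 hE hN hM hout hdens hA v0 hCB hC hcl hmin χ
        _ = _ := by
            rw [Finset.sum_const, nsmul_eq_mul]
    have h4 : B.card = (B \ C).card + C.card := by
      rw [Finset.card_sdiff_of_subset hCB]
      have := Finset.card_le_card hCB
      omega
    rw [h4, arcs_split A B C, pow_add, pow_add]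
    calc ((EmbD E out A D v0 B).card : ℝ) ≤ _ := h3
      _ ≤ ((132 * Real.log n * n) ^ (B \ C).card * (2 * q) ^ (arcs A (B \ C)).card) *
          ((132 * Real.log n * n) ^ C.card *
        (2 * q) ^ ((arcs A B).filter fun p => p.1 ∈ C ∨ p.2 ∈ C).card) := by
          apply mul_le_mul_of_nonneg_right h1
          positivity
      _ = _ := by ring

end VP064
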